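import Mathlib

namespace Vale.Agent.P170

open Finset

variable {Ω : Type} [Fintype Ω]

abbrev Fn (Ω : Type) := Set Ω → ℝ
abbrev En (Ω : Type) := Module.End ℝ (Fn Ω)

open Classical in
noncomputable def u : Fn Ω := fun S => if S.Nonempty then 1 else 0

open Classical in
def IsM (D : Set Ω → Prop) (L : En Ω) : Prop :=
  ∃ μ : Set Ω → ℝ, (∀ A, 0 ≤ μ A) ∧ ∑ A, μ A = 1 ∧ (∀ A, μ A ≠ 0 → D A) ∧
    ∀ f S, L f S = ∑ A, μ A * f (S ∩ A)

omit [Fintype Ω] in
lemma u_nonneg (S : Set Ω) : 0 ≤ u S := by unfold u; split_ifs <;> norm_num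
omit [Fintype Ω] in
lemma u_le_one (S : Set Ω) : u S ≤ 1 := by unfold u; split_ifs <;> norm_num
omit [Fintype Ω] in
lemma u_empty : u (∅ : Set Ω) = 0 := by simp [u]
omit [Fintype Ω] in
lemma u_of_ne {S : Set Ω} (h : S.Nonempty) : u S = 1 := by simp [u, h]
omit [Fintype Ω] in
lemma u_mono : Monotone (u : Fn Ω) := by
  intro S T h
  rcases S.eq_empty_or_nonempty with rfl | hS
  · rw [u_empty]; exact u_nonneg _
  · rw [u_of_ne hS, u_of_ne (hS.mono h)]

namespace IsM
variable {D D' : Set Ω → Prop} {L P Q : En Ω}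

lemma mono_D (h : IsM D L) (hD : ∀ A, D A → D' A) : IsM D' L := by
  obtain ⟨μ, h0, h1, h2, h3⟩ := h
  exact ⟨μ, h0, h1, fun A hA => hD A (h2 A hA), h3⟩

lemma one (hD : D Set.univ) : IsM D (1 : En Ω) := by
  classical
  refine ⟨fun A => if A = Set.univ then 1 else 0, ?_, ?_, ?_, ?_⟩
  · intro A; dsimp only; split_ifs <;> norm_num
  · simp
  · intro A hA; by_cases h : A = Set.univ
    · rw [h]; exact hD
    · simp [h] at hA
  · intro f S; simp

lemma comb (hP : IsM D P) (hQ : IsM D Q) {a b : ℝ} (ha : 0 ≤ a) (hb : 0 ≤ b) (hab : a + b = 1) :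
    IsM D (a • P + b • Q) := by
  obtain ⟨μ, h0, h1, h2, h3⟩ := hP
  obtain ⟨ν, k0, k1, k2, k3⟩ := hQ
  refine ⟨fun A => a * μ A + b * ν A, ?_, ?_, ?_, ?_⟩
  · intro A; have := h0 A; have := k0 A; positivity
  · rw [sum_add_distrib, ← mul_sum, ← mul_sum, h1, k1]; linarith
  · intro A hA
    by_cases h : μ A = 0
    · apply k2; intro h'; apply hA; simp [h, h']
    · exact h2 A h
  · intro f S
    simp only [LinearMap.add_apply, LinearMap.smul_apply, Pi.add_apply, Pi.smul_apply, smul_eq_mul,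
      h3, k3, mul_sum, ← sum_add_distrib]
    refine sum_congr rfl fun A _ => by ring

lemma loc (h : IsM D L) {f g : Fn Ω} {S : Set Ω} (hfg : ∀ T, T ⊆ S → f T ≤ g T) :
    L f S ≤ L g S := by
  obtain ⟨μ, h0, h1, h2, h3⟩ := h
  rw [h3, h3]
  exact sum_le_sum fun A _ => mul_le_mul_of_nonneg_left (hfg _ Set.inter_subset_left) (h0 A)

lemma const (h : IsM D L) (c : ℝ) (S : Set Ω) : L (fun _ => c) S = c := by
  obtain ⟨μ, h0, h1, h2, h3⟩ := h
  rw [h3, ← sum_mul, h1, one_mul]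

lemma shift (h : IsM D L) (f : Fn Ω) (S A : Set Ω) :
    L (fun T => f (T ∩ A)) S = L f (S ∩ A) := by
  obtain ⟨μ, h0, h1, h2, h3⟩ := h
  rw [h3, h3]
  refine sum_congr rfl fun B _ => ?_
  rw [Set.inter_right_comm]

lemma comm (hP : IsM D P) (hQ : IsM D' Q) : Commute P Q := by
  obtain ⟨μ, h0, h1, h2, h3⟩ := hP
  obtain ⟨ν, k0, k1, k2, k3⟩ := hQ
  refine LinearMap.ext fun f => funext fun S => ?_
  simp only [Module.End.mul_apply, h3, k3, mul_sum]
  rw [sum_comm]
  refine sum_congr rfl fun A _ => sum_congr rfl fun B _ => ?_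
  rw [Set.inter_right_comm]; ring

lemma empty (h : IsM D L) (f : Fn Ω) : L f ∅ = f ∅ := by
  obtain ⟨μ, h0, h1, h2, h3⟩ := h
  rw [h3]; simp [← sum_mul, h1]

lemma monotone (h : IsM D L) {f : Fn Ω} (hf : Monotone f) : Monotone (L f) := by
  obtain ⟨μ, h0, h1, h2, h3⟩ := h
  intro S T hST
  rw [h3, h3]
  exact sum_le_sum fun A _ => mul_le_mul_of_nonneg_left
    (hf (Set.inter_subset_inter_left _ hST)) (h0 A)

lemma le_self (h : IsM D L) {f : Fn Ω} (hf : Monotone f) (S : Set Ω) : L f S ≤ f S := by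
  have := h.loc (f := f) (g := fun _ => f S) (S := S) (fun T hT => hf hT)
  rwa [h.const] at this

lemma jensen (h : IsM D L) (f : Fn Ω) (S : Set Ω) : (L f S) ^ 2 ≤ L (fun T => f T ^ 2) S := by
  have h1 := h.loc (f := fun T => 2 * L f S * f T - (L f S) ^ 2) (g := fun T => f T ^ 2) (S := S)
    (fun T _ => by nlinarith [sq_nonneg (f T - L f S)])
  have h2 : (fun T => 2 * L f S * f T - (L f S) ^ 2) = (2 * L f S) • f - fun _ => (L f S) ^ 2 := by
    ext T; simp
  rw [h2, map_sub, map_smul] at h1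
  simp only [Pi.sub_apply, Pi.smul_apply, smul_eq_mul, h.const] at h1
  nlinarith

lemma pow_loc (h : IsM D L) (t : ℕ) {f g : Fn Ω} {S : Set Ω} (hfg : ∀ T, T ⊆ S → f T ≤ g T) :
    (L ^ t) f S ≤ (L ^ t) g S := by
  induction t generalizing S with
  | zero => simpa using hfg S le_rfl
  | succ t ih =>
    rw [pow_succ', Module.End.mul_apply, Module.End.mul_apply]
    exact h.loc fun T hT => ih fun T' hT' => hfg T' (hT'.trans hT)

lemma pow_const (h : IsM D L) (t : ℕ) (c : ℝ) (S : Set Ω) : (L ^ t) (fun _ => c) S = c := by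
  induction t generalizing S with
  | zero => simp
  | succ t ih =>
    rw [pow_succ', Module.End.mul_apply]
    have : (L ^ t) (fun _ => c) = fun _ => c := funext ih
    rw [this, h.const]

lemma pow_shift (h : IsM D L) (t : ℕ) (f : Fn Ω) (S A : Set Ω) :
    (L ^ t) (fun T => f (T ∩ A)) S = (L ^ t) f (S ∩ A) := by
  induction t generalizing S with
  | zero => simp
  | succ t ih =>
    rw [pow_succ', Module.End.mul_apply, Module.End.mul_apply]
    have : (L ^ t) (fun T => f (T ∩ A)) = fun T => (L ^ t) f (T ∩ A) := funext ih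
    rw [this, h.shift]

lemma pow_empty (h : IsM D L) (t : ℕ) (f : Fn Ω) : (L ^ t) f ∅ = f ∅ := by
  induction t with
  | zero => simp
  | succ t ih => rw [pow_succ', Module.End.mul_apply, h.empty, ih]

lemma pow_monotone (h : IsM D L) (t : ℕ) {f : Fn Ω} (hf : Monotone f) : Monotone ((L ^ t) f) := by
  induction t with
  | zero => simpa using hf
  | succ t ih => rw [pow_succ', Module.End.mul_apply]; exact h.monotone ih

lemma pow_nonneg' (h : IsM D L) (t : ℕ) {f : Fn Ω} (hf : ∀ T, 0 ≤ f T) (S : Set Ω) :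
    0 ≤ (L ^ t) f S := by
  have := h.pow_loc t (f := fun _ => 0) (g := f) (S := S) (fun T _ => hf T)
  rwa [h.pow_const] at this

lemma pow_u_nonneg (h : IsM D L) (t : ℕ) (S : Set Ω) : 0 ≤ (L ^ t) u S :=
  h.pow_nonneg' t u_nonneg S

lemma pow_u_le_one (h : IsM D L) (t : ℕ) (S : Set Ω) : (L ^ t) u S ≤ 1 := by
  have := h.pow_loc t (f := u) (g := fun _ => 1) (S := S) (fun T _ => u_le_one T)
  rwa [h.pow_const] at this

lemma pow_u_anti (h : IsM D L) (S : Set Ω) : Antitone fun t => (L ^ t) u S := by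
  apply antitone_nat_of_succ_le
  intro t
  rw [pow_succ', Module.End.mul_apply]
  exact h.le_self (h.pow_monotone t u_mono) S

/-- operators agreeing below `X` -/
lemma pow_congr (hP : IsM D P) {X : Set Ω}
    (hPQ : ∀ f S, S ⊆ X → P f S = Q f S) (t : ℕ) (f : Fn Ω) {S : Set Ω} (hS : S ⊆ X) :
    (P ^ t) f S = (Q ^ t) f S := by
  induction t generalizing S with
  | zero => simp
  | succ t ih =>
    rw [pow_succ', pow_succ', Module.End.mul_apply, Module.End.mul_apply, ← hPQ _ _ hS]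
    apply le_antisymm
    · exact hP.loc fun T hT => (ih (hT.trans hS)).le
    · exact hP.loc fun T hT => (ih (hT.trans hS)).ge

/-- cylinder lemma -/
lemma pow_cyl (h : IsM D L) (hD : ∀ A B, D A → D B → D (A ∩ B)) {f g : Fn Ω} {Y : Set Ω}
    (hfg : ∀ S, D S → f (S ∩ Y) = g S) (t : ℕ) {S : Set Ω} (hS : D S) :
    (L ^ t) f (S ∩ Y) = (L ^ t) g S := by
  induction t generalizing S with
  | zero => simpa using hfg S hS
  | succ t ih =>
    rw [pow_succ', Module.End.mul_apply, Module.End.mul_apply]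
    obtain ⟨μ, h0, h1, h2, h3⟩ := h
    rw [h3, h3]
    refine sum_congr rfl fun A _ => ?_
    by_cases hA : μ A = 0
    · simp [hA]
    · rw [Set.inter_right_comm, ih (hD _ _ hS (h2 A hA))]

end IsM

/-- hazard -/
noncomputable def hz (L : En Ω) : Fn Ω := u - L u
/-- truncated residual time -/
noncomputable def Rs (L : En Ω) (M : ℕ) : Fn Ω := ∑ t ∈ range M, (L ^ t) u
noncomputable def Ns (L : En Ω) (M : ℕ) : Fn Ω := ∑ t ∈ range M, (2 * (t : ℝ) + 1) • (L ^ t) u

omit [Fintype Ω] in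
lemma Rs_apply (L : En Ω) (M : ℕ) (S : Set Ω) : Rs L M S = ∑ t ∈ range M, (L ^ t) u S := by
  simp [Rs, Finset.sum_apply]

omit [Fintype Ω] in
lemma Ns_apply (L : En Ω) (M : ℕ) (S : Set Ω) :
    Ns L M S = ∑ t ∈ range M, (2 * (t : ℝ) + 1) * (L ^ t) u S := by
  simp [Ns, Finset.sum_apply]

omit [Fintype Ω] in
lemma sum_pow_succ (L : En Ω) (g : Fn Ω) (r : ℕ) :
    ∑ t ∈ range (r + 1), (L ^ t) g = g + L (∑ t ∈ range r, (L ^ t) g) := by
  rw [sum_range_succ', map_sum, add_comm]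
  simp [pow_succ']

namespace IsM
variable {D D' : Set Ω → Prop} {L P Q : En Ω}

lemma hz_nonneg (h : IsM D L) (S : Set Ω) : 0 ≤ hz L S := by
  have := h.le_self u_mono S
  simp only [hz, Pi.sub_apply]; linarith

lemma hz_empty (h : IsM D L) : hz L ∅ = 0 := by
  simp [hz, h.empty]

lemma hz_le_one (h : IsM D L) (S : Set Ω) : hz L S ≤ 1 := by
  have := h.pow_u_nonneg 1 S
  have := u_le_one S
  simp only [hz, Pi.sub_apply, pow_one] at *; linarith

lemma hz_sum (h : IsM D L) (M : ℕ) (S : Set Ω) : ∑ t ∈ range M, (L ^ t) (hz L) S ≤ 1 := by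
  have : ∑ t ∈ range M, (L ^ t) (hz L) S = u S - (L ^ M) u S := by
    induction M with
    | zero => simp
    | succ M ih =>
      rw [sum_range_succ, ih, hz, map_sub, pow_succ, Module.End.mul_apply]; simp
  rw [this]
  have := h.pow_u_nonneg M S
  have := u_le_one S
  linarith

lemma hz_mono (h : IsM D L) {S T : Set Ω} (hT : T ⊆ S) : hz L S * u T ≤ hz L T := by
  rcases T.eq_empty_or_nonempty with rfl | hne
  · rw [u_empty, mul_zero, h.hz_empty]
  · have := h.monotone u_mono hT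
    simp only [hz, Pi.sub_apply, u_of_ne hne, u_of_ne (hne.mono hT)]
    linarith

lemma hz_mul_Rs (h : IsM D L) (M : ℕ) (S : Set Ω) : hz L S * Rs L M S ≤ 1 := by
  refine le_trans ?_ (h.hz_sum M S)
  rw [Rs_apply, mul_sum]
  refine sum_le_sum fun t _ => ?_
  have := h.pow_loc t (f := hz L S • u) (g := hz L) (S := S) (fun T hT => h.hz_mono hT)
  simpa using this

lemma Rs_le (h : IsM D L) (M : ℕ) (S : Set Ω) : Rs L M S ≤ M := by
  rw [Rs_apply]
  have := sum_le_sum (s := range M) fun t _ => h.pow_u_le_one t S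
  simpa using this

lemma Rs_nonneg (h : IsM D L) (M : ℕ) (S : Set Ω) : 0 ≤ Rs L M S := by
  rw [Rs_apply]; exact sum_nonneg fun t _ => h.pow_u_nonneg t S

lemma Rs_mono (h : IsM D L) {M M' : ℕ} (hM : M ≤ M') (S : Set Ω) : Rs L M S ≤ Rs L M' S := by
  rw [Rs_apply, Rs_apply]
  exact sum_le_sum_of_subset_of_nonneg (range_mono hM) fun t _ _ => h.pow_u_nonneg t S

lemma pow_u_decay (h : IsM D L) (t : ℕ) (S : Set Ω) : (L ^ t) u S ≤ (1 - hz L S) ^ t := by
  induction t with
  | zero => simpa using u_le_one S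
  | succ t ih =>
    rw [pow_succ, Module.End.mul_apply]
    have := h.pow_loc t (f := L u) (g := (1 - hz L S) • u) (S := S) (fun T hT => by
      have := h.hz_mono hT
      simp only [hz, Pi.sub_apply, Pi.smul_apply, smul_eq_mul] at *
      linarith)
    rw [map_smul] at this
    simp only [Pi.smul_apply, smul_eq_mul] at this
    have h1 := h.hz_le_one S
    rw [pow_succ]
    nlinarith [mul_le_mul_of_nonneg_left ih (sub_nonneg.2 h1)]

/-- comparison -/
lemma compare (hP : IsM D P) (hQ : IsM D' Q) {ε δ : ℝ} (hε : 0 ≤ ε) (hδ : 0 ≤ δ)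
    (he : ∀ S, hz P S - hz Q S ≤ ε * hz Q S + δ) (M : ℕ) (S : Set Ω) :
    Rs Q M S - Rs P M S ≤ M * (ε + M * δ) := by
  have key : ∀ r ≤ M, ∀ S, Rs Q r S - Rs P r S ≤ r * (ε + M * δ) := by
    intro r
    induction r with
    | zero => intro _ S; simp [Rs]
    | succ r ih =>
      intro hr S
      have ih' := ih (by omega)
      have e1 : Rs Q (r + 1) = u + Q (Rs Q r) := sum_pow_succ Q u r
      have e2 : Rs P (r + 1) = u + P (Rs P r) := sum_pow_succ P u r
      have e3 : Q (Rs Q r) = P (Rs Q r) + ∑ t ∈ range r, (Q ^ t) (hz P - hz Q) := by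
        rw [Rs, map_sum, map_sum, ← sum_add_distrib]
        refine sum_congr rfl fun t _ => ?_
        have c1 : P ((Q ^ t) u) = (Q ^ t) (P u) := by
          rw [← Module.End.mul_apply, ((hP.comm hQ).pow_right t).eq, Module.End.mul_apply]
        have c2 : Q ((Q ^ t) u) = (Q ^ t) (Q u) := by
          rw [← Module.End.mul_apply, ← pow_succ', pow_succ, Module.End.mul_apply]
        rw [c1, c2, ← map_add]
        congr 1
        simp only [hz]; abel
      have e4 : P (Rs Q r) S - P (Rs P r) S ≤ r * (ε + M * δ) := by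
        have := hP.loc (f := Rs Q r - Rs P r) (g := fun _ => r * (ε + M * δ)) (S := S)
          (fun T _ => ih' T)
        rw [hP.const, map_sub] at this
        exact this
      have e5 : (∑ t ∈ range r, (Q ^ t) (hz P - hz Q)) S ≤ ε + M * δ := by
        rw [Finset.sum_apply]
        have : ∀ t ∈ range r, (Q ^ t) (hz P - hz Q) S ≤ ε * (Q ^ t) (hz Q) S + δ := by
          intro t _
          have := hQ.pow_loc t (f := hz P - hz Q) (g := ε • hz Q + fun _ => δ) (S := S)
            (fun T _ => he T)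
          rw [map_add, map_smul] at this
          simpa [hQ.pow_const] using this
        refine (sum_le_sum this).trans ?_
        rw [sum_add_distrib, ← mul_sum]
        have h1 := hQ.hz_sum r S
        have h2 : (r : ℝ) ≤ M := by exact_mod_cast (by omega : r ≤ M)
        simp only [sum_const, card_range, nsmul_eq_mul]
        nlinarith
      rw [e1, e2, e3]
      simp only [Pi.add_apply]
      push_cast
      linarith
  exact key M le_rfl S

lemma sq_sum_le (h : IsM D L) {g R : Fn Ω} (hg : ∀ T, 0 ≤ g T) (M : ℕ)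
    (hR : ∀ r ≤ M, ∀ T, (∑ t ∈ range r, (L ^ t) g) T ≤ R T) :
    ∀ r ≤ M, ∀ S, ((∑ t ∈ range r, (L ^ t) g) S) ^ 2 ≤
      2 * (∑ t ∈ range r, (L ^ t) (g * R)) S := by
  intro r
  induction r with
  | zero => intro _ S; simp
  | succ r ih =>
    intro hr S
    have ih' := ih (by omega)
    have h1 := hR (r + 1) hr S
    rw [sum_pow_succ] at h1 ⊢
    rw [sum_pow_succ]
    set G := ∑ t ∈ range r, (L ^ t) g
    set H := ∑ t ∈ range r, (L ^ t) (g * R)
    have h2 := h.jensen G S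
    have h3 := h.loc (f := fun T => G T ^ 2) (g := (2 : ℝ) • H) (S := S) (fun T _ => ih' T)
    rw [map_smul] at h3
    simp only [Pi.add_apply, Pi.mul_apply, Pi.smul_apply, smul_eq_mul] at *
    have := hg S
    nlinarith [mul_le_mul_of_nonneg_left h1 this]

lemma step_var (h : IsM D L) (M : ℕ) {r : ℕ} (hr : r ≤ M) (S : Set Ω) :
    L (fun T => Rs L r T ^ 2) S - (L (Rs L r) S) ^ 2 ≤
      2 * (∑ t ∈ range M, (L ^ t) (hz L * Rs L M)) S := by
  have h' := h
  obtain ⟨μ, h0, h1, h2, h3⟩ := h'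
  set kA : Set Ω → Fn Ω := fun A => u - fun T => u (T ∩ A) with hkA
  have kA0 : ∀ A T, 0 ≤ kA A T := fun A T => by
    have := u_mono (Set.inter_subset_left : T ∩ A ⊆ T)
    simp only [hkA, Pi.sub_apply]; linarith
  have kA1 : ∀ A T, kA A T ≤ u T := fun A T => by
    have := u_nonneg (T ∩ A)
    simp only [hkA, Pi.sub_apply]; linarith
  have e1 : ∀ A j T, (∑ t ∈ range j, (L ^ t) (kA A)) T = Rs L j T - Rs L j (T ∩ A) := by
    intro A j T
    rw [Rs_apply, Rs_apply, ← sum_sub_distrib, Finset.sum_apply]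
    refine sum_congr rfl fun t _ => ?_
    simp only [hkA, map_sub, Pi.sub_apply, h.pow_shift]
  have e2 : ∀ A, (Rs L r S - Rs L r (S ∩ A)) ^ 2 ≤
      2 * (∑ t ∈ range M, (L ^ t) (kA A * Rs L M)) S := by
    intro A
    have := h.sq_sum_le (kA0 A) (R := Rs L M) M (fun j hj T => by
      rw [e1]
      have := h.Rs_nonneg j (T ∩ A)
      have := h.Rs_mono hj T
      linarith) r hr S
    rw [e1] at this
    refine this.trans ?_
    simp only [Finset.sum_apply]
    refine mul_le_mul_of_nonneg_left ?_ (by norm_num)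
    exact sum_le_sum_of_subset_of_nonneg (range_mono hr) fun t _ _ =>
      h.pow_nonneg' t (fun T => mul_nonneg (kA0 A T) (h.Rs_nonneg M T)) S
  have e3 : hz L * Rs L M = ∑ A, μ A • (kA A * Rs L M) := by
    ext T
    simp only [hz, Pi.mul_apply, Pi.sub_apply, Finset.sum_apply, Pi.smul_apply, smul_eq_mul, hkA,
      h3, ← mul_assoc, ← sum_mul, mul_sub, sum_sub_distrib, h1, one_mul]
  have e4 : 2 * (∑ t ∈ range M, (L ^ t) (hz L * Rs L M)) S =
      ∑ A, μ A * (2 * (∑ t ∈ range M, (L ^ t) (kA A * Rs L M)) S) := by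
    rw [e3]
    simp only [map_sum, map_smul, Finset.sum_apply, Pi.smul_apply, smul_eq_mul, mul_sum]
    rw [sum_comm]
    refine sum_congr rfl fun A _ => sum_congr rfl fun t _ => by ring
  rw [e4]
  refine le_trans ?_ (sum_le_sum fun A _ => mul_le_mul_of_nonneg_left (e2 A) (h0 A))
  have e5 : ∑ A, μ A * (Rs L r S - Rs L r (S ∩ A)) ^ 2 =
      Rs L r S ^ 2 - 2 * Rs L r S * L (Rs L r) S + L (fun T => Rs L r T ^ 2) S := by
    rw [h3, h3, mul_sum]
    conv_rhs => rw [← one_mul (Rs L r S ^ 2), ← h1, sum_mul, ← sum_sub_distrib, ← sum_add_distrib]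
    refine sum_congr rfl fun A _ => by ring
  rw [e5]
  nlinarith [sq_nonneg (Rs L r S - L (Rs L r) S)]

lemma var_le (h : IsM D L) (M : ℕ) (S : Set Ω) :
    Ns L M S - Rs L M S ^ 2 ≤ 2 * M * ∑ t ∈ range (2 * M), (L ^ t) (hz L * Rs L M) S := by
  set E : Fn Ω := (2 : ℝ) • ∑ t ∈ range M, (L ^ t) (hz L * Rs L M) with hE
  have key : ∀ r ≤ M, ∀ S, Ns L r S - Rs L r S ^ 2 ≤ (∑ j ∈ range r, (L ^ j) E) S := by
    intro r
    induction r with
    | zero => intro _ S; simp [Ns, Rs]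
    | succ r ih =>
      intro hr S
      have ih' := ih (by omega)
      have e1 : Rs L (r + 1) = u + L (Rs L r) := sum_pow_succ L u r
      have e2 : Ns L (r + 1) = u + L (Ns L r) + (2 : ℝ) • L (Rs L r) := by
        rw [Ns, sum_range_succ', Ns, Rs, map_sum, map_sum, smul_sum, add_assoc, ← sum_add_distrib,
          add_comm]
        simp only [Nat.cast_zero, mul_zero, zero_add, pow_zero, Module.End.one_apply, one_smul,
          add_right_inj]
        refine sum_congr rfl fun t _ => ?_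
        rw [map_smul, pow_succ', Module.End.mul_apply, ← add_smul]
        congr 1; push_cast; ring
      have e3 : u S * L (Rs L r) S = L (Rs L r) S := by
        rcases S.eq_empty_or_nonempty with rfl | hne
        · rw [h.empty, Rs_apply]; simp [h.pow_empty, u_empty]
        · rw [u_of_ne hne, one_mul]
      have e4 : u S * u S = u S := by unfold u; split_ifs <;> norm_num
      have e5 := h.step_var M (r := r) (by omega) S
      have e6 := h.loc (f := Ns L r - fun T => Rs L r T ^ 2) (g := ∑ j ∈ range r, (L ^ j) E)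
        (S := S) (fun T _ => ih' T)
      rw [map_sub] at e6
      rw [sum_pow_succ, e1, e2]
      simp only [Pi.add_apply, Pi.sub_apply, Pi.smul_apply, smul_eq_mul, hE] at *
      nlinarith
  refine (key M le_rfl S).trans ?_
  rw [Finset.sum_apply]
  have : ∀ j ∈ range M, (L ^ j) E S ≤ 2 * ∑ t ∈ range (2 * M), (L ^ t) (hz L * Rs L M) S := by
    intro j hj
    have hj' := mem_range.1 hj
    rw [hE, map_smul, map_sum]
    simp only [Pi.smul_apply, smul_eq_mul, Finset.sum_apply, ← Module.End.mul_apply, ← pow_add]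
    refine mul_le_mul_of_nonneg_left ?_ (by norm_num)
    rw [← sum_image (s := range M) (g := fun t => j + t)
      (f := fun t => (L ^ t) (hz L * Rs L M) S) (fun a _ b _ hab => by simpa using hab)]
    refine sum_le_sum_of_subset_of_nonneg ?_ fun t _ _ =>
      h.pow_nonneg' t (fun T => mul_nonneg (h.hz_nonneg T) (h.Rs_nonneg M T)) S
    intro x hx
    obtain ⟨t, ht, rfl⟩ := mem_image.1 hx
    have := mem_range.1 ht
    exact mem_range.2 (by omega)
  refine (sum_le_sum this).trans (le_of_eq ?_)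
  simp only [sum_const, card_range, nsmul_eq_mul]; ring

end IsM

/-- Abel summation for the second moment. -/
lemma abel_sq (p : ℕ → ℝ) (μ : ℝ) (M : ℕ) :
    μ ^ 2 + ∑ t ∈ range (M + 1), (2 * (t : ℝ) + 1 - 2 * μ) * p t =
      (1 - p 0) * μ ^ 2 + ∑ t ∈ range M, (p t - p (t + 1)) * ((t : ℝ) + 1 - μ) ^ 2 +
        p M * ((M : ℝ) + 1 - μ) ^ 2 := by
  induction M with
  | zero => simp; ring
  | succ M ih =>
    rw [sum_range_succ, ← add_assoc, ih, sum_range_succ]; push_cast; ring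

lemma cheb_low (p : ℕ → ℝ) (hp : Antitone p) (h0 : ∀ t, 0 ≤ p t) (h1 : ∀ t, p t ≤ 1) (μ : ℝ)
    (M a : ℕ) (ha : a < M) (haμ : (a : ℝ) ≤ μ) :
    (1 - p a) * (μ - a) ^ 2 ≤ μ ^ 2 + ∑ t ∈ range M, (2 * (t : ℝ) + 1 - 2 * μ) * p t := by
  obtain ⟨M, rfl⟩ : ∃ M', M = M' + 1 := ⟨M - 1, by omega⟩
  rw [abel_sq]
  have e1 : ∑ t ∈ range a, (p t - p (t + 1)) * (μ - a) ^ 2 ≤
      ∑ t ∈ range M, (p t - p (t + 1)) * ((t : ℝ) + 1 - μ) ^ 2 := by
    refine le_trans (sum_le_sum fun t ht => ?_) (sum_le_sum_of_subset_of_nonneg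
      (range_mono (by omega : a ≤ M)) fun t _ _ =>
        mul_nonneg (sub_nonneg.2 (hp (Nat.le_succ t))) (sq_nonneg _))
    refine mul_le_mul_of_nonneg_left ?_ (sub_nonneg.2 (hp (Nat.le_succ t)))
    have : (t : ℝ) + 1 ≤ a := by exact_mod_cast mem_range.1 ht
    nlinarith
  rw [← sum_mul, sum_range_sub'] at e1
  have e2 : (1 - p 0) * (μ - a) ^ 2 ≤ (1 - p 0) * μ ^ 2 := by
    refine mul_le_mul_of_nonneg_left ?_ (sub_nonneg.2 (h1 0))
    have : (0 : ℝ) ≤ a := Nat.cast_nonneg a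
    nlinarith
  have e3 := mul_nonneg (h0 M) (sq_nonneg ((M : ℝ) + 1 - μ))
  nlinarith

lemma cheb_up (p : ℕ → ℝ) (hp : Antitone p) (h0 : ∀ t, 0 ≤ p t) (h1 : ∀ t, p t ≤ 1) (μ : ℝ)
    (M a : ℕ) (ha : a < M) (haμ : μ ≤ (a : ℝ) + 1) :
    p a * ((a : ℝ) + 1 - μ) ^ 2 ≤ μ ^ 2 + ∑ t ∈ range M, (2 * (t : ℝ) + 1 - 2 * μ) * p t := by
  obtain ⟨M, rfl⟩ : ∃ M', M = M' + 1 := ⟨M - 1, by omega⟩
  rw [abel_sq]
  have haM : a ≤ M := by omega
  have e1 : ∑ t ∈ Ico a M, (p t - p (t + 1)) * ((a : ℝ) + 1 - μ) ^ 2 ≤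
      ∑ t ∈ range M, (p t - p (t + 1)) * ((t : ℝ) + 1 - μ) ^ 2 := by
    refine le_trans (sum_le_sum fun t ht => ?_) (sum_le_sum_of_subset_of_nonneg
      (s := Ico a M) (fun t ht => mem_range.2 (mem_Ico.1 ht).2) fun t _ _ =>
        mul_nonneg (sub_nonneg.2 (hp (Nat.le_succ t))) (sq_nonneg _))
    refine mul_le_mul_of_nonneg_left ?_ (sub_nonneg.2 (hp (Nat.le_succ t)))
    have : (a : ℝ) ≤ t := by exact_mod_cast (mem_Ico.1 ht).1
    nlinarith
  rw [← sum_mul, sum_Ico_eq_sub _ haM, sum_range_sub', sum_range_sub'] at e1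
  have e2 : 0 ≤ (1 - p 0) * μ ^ 2 := mul_nonneg (sub_nonneg.2 (h1 0)) (sq_nonneg _)
  have e3 : p M * ((a : ℝ) + 1 - μ) ^ 2 ≤ p M * ((M : ℝ) + 1 - μ) ^ 2 := by
    refine mul_le_mul_of_nonneg_left ?_ (h0 M)
    have : (a : ℝ) ≤ M := by exact_mod_cast haM
    nlinarith
  nlinarith

namespace IsM
variable {D D' : Set Ω → Prop} {L P Q : En Ω}

lemma var_eq (L : En Ω) (M : ℕ) (S : Set Ω) :
    Rs L M S ^ 2 + ∑ t ∈ range M, (2 * (t : ℝ) + 1 - 2 * Rs L M S) * (L ^ t) u S =
      Ns L M S - Rs L M S ^ 2 := by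
  simp only [sub_mul, sum_sub_distrib, ← mul_sum, ← Rs_apply, ← Ns_apply]; ring

lemma cheb_low (h : IsM D L) (M a : ℕ) (S : Set Ω) (ha : (a : ℝ) < Rs L M S) :
    (1 - (L ^ a) u S) * (Rs L M S - a) ^ 2 ≤ Ns L M S - Rs L M S ^ 2 := by
  rw [← var_eq]
  have : a < M := by exact_mod_cast ha.trans_le (h.Rs_le M S)
  exact P170.cheb_low _ (h.pow_u_anti S) (fun t => h.pow_u_nonneg t S)
    (fun t => h.pow_u_le_one t S) _ M a this ha.le

lemma cheb_up (h : IsM D L) (M a : ℕ) (S : Set Ω) (haM : a < M) (ha : Rs L M S ≤ (a : ℝ) + 1) :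
    (L ^ a) u S * ((a : ℝ) + 1 - Rs L M S) ^ 2 ≤ Ns L M S - Rs L M S ^ 2 := by
  rw [← var_eq]
  exact P170.cheb_up _ (h.pow_u_anti S) (fun t => h.pow_u_nonneg t S)
    (fun t => h.pow_u_le_one t S) _ M a haM ha

end IsM

/-- two-type mixture lower bound -/
lemma mix_lower {D1 D2 : Set Ω → Prop} {P1 P2 : En Ω} (h1 : IsM D1 P1) (h2 : IsM D2 P2)
    {θ1 θ2 : ℝ} (hθ1 : 0 ≤ θ1) (hθ2 : 0 ≤ θ2) (hθ : θ1 + θ2 = 1) (S : Set Ω) (A c : ℝ) (hc : 0 ≤ c)
    (m : ℕ) (hφ : ∀ i j : ℕ, i + j = m →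
      A - c * (θ2 * i - θ1 * j) ^ 2 ≤ (P1 ^ i) ((P2 ^ j) u) S) :
    A - c * m ≤ ((θ1 • P1 + θ2 • P2) ^ m) u S := by
  have key : ∀ r i j : ℕ, i + j + r = m → A - c * ((θ2 * i - θ1 * j) ^ 2 + r) ≤
      ((θ1 • P1 + θ2 • P2) ^ r) ((P1 ^ i) ((P2 ^ j) u)) S := by
    intro r
    induction r with
    | zero => intro i j h; simpa using hφ i j (by omega)
    | succ r ih =>
      intro i j h
      have a1 := ih (i + 1) j (by omega)
      have a2 := ih i (j + 1) (by omega)
      have c2 : P2 ((P1 ^ i) ((P2 ^ j) u)) = (P1 ^ i) ((P2 ^ (j + 1)) u) := by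
        rw [← Module.End.mul_apply, ((h2.comm h1).pow_right i).eq, Module.End.mul_apply, pow_succ',
          Module.End.mul_apply]
      have c1 : P1 ((P1 ^ i) ((P2 ^ j) u)) = (P1 ^ (i + 1)) ((P2 ^ j) u) := by
        rw [pow_succ', Module.End.mul_apply]
      rw [pow_succ (θ1 • P1 + θ2 • P2), Module.End.mul_apply, LinearMap.add_apply, LinearMap.smul_apply,
        LinearMap.smul_apply, c1, c2, map_add, map_smul, map_smul]
      simp only [Pi.add_apply, Pi.smul_apply, smul_eq_mul]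
      have b1 := mul_le_mul_of_nonneg_left a1 hθ1
      have b2 := mul_le_mul_of_nonneg_left a2 hθ2
      push_cast at *
      have hθ2' : θ2 = 1 - θ1 := by linarith
      have e : θ1 * (A - c * ((θ2 * (i + 1) - θ1 * j) ^ 2 + r)) +
          θ2 * (A - c * ((θ2 * i - θ1 * (j + 1)) ^ 2 + r)) =
          A - c * ((θ2 * i - θ1 * j) ^ 2 + r + θ1 * θ2) := by rw [hθ2']; ring
      have : θ1 * θ2 ≤ 1 := by nlinarith
      nlinarith [mul_le_mul_of_nonneg_left this hc]
  simpa using key m 0 0 (by omega)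

end Vale.Agent.P170
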