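import Mathlib
import Vale.Agent.P170.Op

namespace Vale.Agent.P170

open Finset

noncomputable def avg {Ω ι : Type} (C : Finset ι) (A : ι → Set Ω) : En Ω where
  toFun f := fun S => (∑ c ∈ C, f (S ∩ A c)) / C.card
  map_add' f g := by ext S; simp [sum_add_distrib, add_div]
  map_smul' a f := by ext S; simp [← mul_sum, mul_div_assoc]

lemma avg_apply {Ω ι : Type} (C : Finset ι) (A : ι → Set Ω) (f : Fn Ω) (S : Set Ω) :
    avg C A f S = (∑ c ∈ C, f (S ∩ A c)) / C.card := rfl

lemma avg_isM {Ω ι : Type} [Fintype Ω] {C : Finset ι} {A : ι → Set Ω} {D : Set Ω → Prop}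
    (hC : C.Nonempty) (hD : ∀ c ∈ C, D (A c)) : IsM D (avg C A) := by
  classical
  have hc : (0 : ℝ) < C.card := by exact_mod_cast hC.card_pos
  refine ⟨fun B => ((C.filter fun c => A c = B).card : ℝ) / C.card, ?_, ?_, ?_, ?_⟩
  · intro B; positivity
  · rw [← sum_div, div_eq_one_iff_eq hc.ne']
    exact_mod_cast (card_eq_sum_card_fiberwise (f := A) (s := C) (t := univ)
      (fun _ _ => mem_coe.2 (mem_univ _))).symm
  · intro B hB
    have : (C.filter fun c => A c = B).Nonempty := by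
      rw [← card_pos]; by_contra h0
      apply hB; simp only [not_lt, Nat.le_zero] at h0; simp [h0]
    obtain ⟨c, hc⟩ := this
    rw [mem_filter] at hc
    rw [← hc.2]; exact hD c hc.1
  · intro f S
    rw [avg_apply, ← sum_fiberwise_of_maps_to (g := A) (t := univ) (fun _ _ => mem_univ _), sum_div]
    refine sum_congr rfl fun B _ => ?_
    rw [sum_congr rfl (g := fun _ => f (S ∩ B)) (fun c hc => by rw [(mem_filter.1 hc).2])]
    simp only [sum_const, nsmul_eq_mul]; ring

variable {V : Type} [Fintype V] [DecidableEq V]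

def Cl (W : Finset V) (r : ℕ) : Finset (Finset (V × Bool)) :=
  univ.filter fun c => c.card = r ∧ (∀ l ∈ c, ∀ l' ∈ c, l.1 = l'.1 → l = l') ∧ ∀ l ∈ c, l.1 ∈ W

def sat (c : Finset (V × Bool)) : Set (V → Bool) := {x | ∃ l ∈ c, x l.1 = l.2}

noncomputable def Pc (W : Finset V) (r : ℕ) : En (V → Bool) := avg (Cl W r) sat

def Dep (W : Finset V) (S : Set (V → Bool)) : Prop :=
  ∀ x y : V → Bool, (∀ v ∈ W, x v = y v) → x ∈ S → y ∈ S

lemma mem_Cl {W : Finset V} {r : ℕ} {c : Finset (V × Bool)} : c ∈ Cl W r ↔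
    c.card = r ∧ (∀ l ∈ c, ∀ l' ∈ c, l.1 = l'.1 → l = l') ∧ ∀ l ∈ c, l.1 ∈ W := by
  simp only [Cl, mem_filter, mem_univ, true_and]

omit [Fintype V] [DecidableEq V] in
lemma Dep.inter {W : Finset V} (A B : Set (V → Bool)) (hA : Dep W A) (hB : Dep W B) :
    Dep W (A ∩ B) := fun x y h hx => ⟨hA x y h hx.1, hB x y h hx.2⟩

omit [Fintype V] [DecidableEq V] in
lemma Dep.univ (W : Finset V) : Dep W Set.univ := fun _ _ _ _ => trivial

lemma dep_sat {W : Finset V} {r : ℕ} {c : Finset (V × Bool)} (hc : c ∈ Cl W r) : Dep W (sat c) := by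
  rintro x y h ⟨l, hl, hx⟩
  exact ⟨l, hl, by rw [← h _ ((mem_Cl.1 hc).2.2 l hl), hx]⟩

lemma split_sum {W : Finset V} {x : V} (hx : x ∈ W) (r : ℕ) (σ : Bool)
    (F : Finset (V × Bool) → ℝ) :
    ∑ c ∈ Cl W (r + 1), F c = ∑ c ∈ Cl (W.erase x) (r + 1), F c +
      ∑ c ∈ Cl (W.erase x) r, F (insert (x, σ) c) +
      ∑ c ∈ Cl (W.erase x) r, F (insert (x, !σ) c) := by
  have key : ∀ τ : Bool, ∑ c ∈ (Cl W (r + 1)).filter (fun c => (x, τ) ∈ c), F c =
      ∑ c ∈ Cl (W.erase x) r, F (insert (x, τ) c) := by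
    intro τ
    symm
    refine sum_bij' (fun c _ => insert (x, τ) c) (fun c _ => c.erase (x, τ)) ?_ ?_ ?_ ?_ ?_
    · intro c hc
      obtain ⟨h1, h2, h3⟩ := mem_Cl.1 hc
      have hn : ∀ l ∈ c, l.1 ≠ x := fun l hl => (mem_erase.1 (h3 l hl)).1
      have hn' : (x, τ) ∉ c := fun h => hn _ h rfl
      refine mem_filter.2 ⟨mem_Cl.2 ⟨by rw [card_insert_of_notMem hn', h1], ?_, ?_⟩,
        mem_insert_self _ _⟩
      · intro l hl l' hl' e
        rcases mem_insert.1 hl with rfl | hl <;> rcases mem_insert.1 hl' with rfl | hl'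
        · rfl
        · exact absurd e.symm (hn _ hl')
        · exact absurd e (hn _ hl)
        · exact h2 _ hl _ hl' e
      · intro l hl
        rcases mem_insert.1 hl with rfl | hl
        · exact hx
        · exact (mem_erase.1 (h3 l hl)).2
    · intro c hc
      obtain ⟨hc, hxc⟩ := mem_filter.1 hc
      obtain ⟨h1, h2, h3⟩ := mem_Cl.1 hc
      refine mem_Cl.2 ⟨by rw [card_erase_of_mem hxc, h1]; rfl, ?_, ?_⟩
      · intro l hl l' hl' e
        exact h2 _ (mem_of_mem_erase hl) _ (mem_of_mem_erase hl') e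
      · intro l hl
        refine mem_erase.2 ⟨fun e => ?_, h3 _ (mem_of_mem_erase hl)⟩
        exact (mem_erase.1 hl).1 (h2 _ (mem_of_mem_erase hl) _ hxc e)
    · intro c hc
      obtain ⟨h1, h2, h3⟩ := mem_Cl.1 hc
      exact erase_insert fun h => (mem_erase.1 (h3 _ h)).1 rfl
    · intro c hc
      exact insert_erase (mem_filter.1 hc).2
    · intro c _; rfl
  rw [← key σ, ← key (!σ), ← sum_filter_add_sum_filter_not (Cl W (r + 1)) (fun c => (x, σ) ∈ c),
    ← sum_filter_add_sum_filter_not ((Cl W (r + 1)).filter fun c => ¬ (x, σ) ∈ c)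
      (fun c => (x, !σ) ∈ c)]
  have e1 : ((Cl W (r + 1)).filter fun c => ¬ (x, σ) ∈ c).filter (fun c => (x, !σ) ∈ c) =
      (Cl W (r + 1)).filter (fun c => (x, !σ) ∈ c) := by
    ext c
    simp only [mem_filter]
    constructor
    · rintro ⟨⟨a, _⟩, b⟩; exact ⟨a, b⟩
    · rintro ⟨a, b⟩
      refine ⟨⟨a, fun h => ?_⟩, b⟩
      have := (mem_Cl.1 a).2.1 _ h _ b rfl
      simp at this
  have e2 : ((Cl W (r + 1)).filter fun c => ¬ (x, σ) ∈ c).filter (fun c => ¬ (x, !σ) ∈ c) =
      Cl (W.erase x) (r + 1) := by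
    ext c
    simp only [mem_filter, mem_Cl]
    constructor
    · rintro ⟨⟨⟨h1, h2, h3⟩, a⟩, b⟩
      refine ⟨h1, h2, fun l hl => mem_erase.2 ⟨fun e => ?_, h3 l hl⟩⟩
      obtain ⟨v, τ⟩ := l
      simp only at e
      subst e
      by_cases hτ : τ = σ
      · subst hτ; exact a hl
      · have : τ = !σ := by cases τ <;> cases σ <;> simp_all
        subst this; exact b hl
    · rintro ⟨h1, h2, h3⟩
      exact ⟨⟨⟨h1, h2, fun l hl => (mem_erase.1 (h3 l hl)).2⟩,
        fun h => (mem_erase.1 (h3 _ h)).1 rfl⟩, fun h => (mem_erase.1 (h3 _ h)).1 rfl⟩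
  rw [e1, e2]; ring

lemma card_Cl (W : Finset V) (r : ℕ) : ((Cl W r).card : ℝ) = 2 ^ r * (W.card.choose r) := by
  induction W using Finset.induction_on generalizing r with
  | empty =>
    rcases r with _ | r
    · have : Cl (∅ : Finset V) 0 = {∅} := by
        ext c; simp only [mem_Cl, card_eq_zero, mem_singleton]
        constructor
        · exact fun h => h.1
        · rintro rfl; simp
      simp [this]
    · have : Cl (∅ : Finset V) (r + 1) = ∅ := by
        ext c; simp only [mem_Cl, notMem_empty, iff_false]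
        rintro ⟨h1, -, h3⟩
        obtain ⟨l, hl⟩ : c.Nonempty := by rw [← card_pos]; omega
        exact h3 l hl
      simp [this]
  | insert x W hx ih =>
    rcases r with _ | r
    · have : Cl (insert x W) 0 = {∅} := by
        ext c; simp only [mem_Cl, card_eq_zero, mem_singleton]
        constructor
        · exact fun h => h.1
        · rintro rfl; simp
      simp [this]
    · have := split_sum (mem_insert_self x W) r true (fun _ => 1)
      simp only [sum_const, nsmul_eq_mul, mul_one, erase_insert hx, ih] at this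
      rw [this, card_insert_of_notMem hx, Nat.choose_succ_succ']
      push_cast; ring

lemma card_Cl_pos {W : Finset V} {r : ℕ} (h : r ≤ W.card) : (0 : ℝ) < (Cl W r).card := by
  rw [card_Cl]
  have : (0 : ℝ) < W.card.choose r := by exact_mod_cast Nat.choose_pos h
  positivity

lemma Pc_isM {W : Finset V} {r : ℕ} (h : r ≤ W.card) : IsM (Dep W) (Pc W r) :=
  avg_isM (by have := card_Cl_pos h; rw [← card_pos]; exact_mod_cast this) fun _ hc => dep_sat hc

open Classical in
noncomputable def bb (W : Finset V) (S : Set (V → Bool)) : Finset (V × Bool) :=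
  univ.filter fun l => l.1 ∈ W ∧ ∀ x ∈ S, x l.1 ≠ l.2

lemma mem_bb {W : Finset V} {S : Set (V → Bool)} {l : V × Bool} :
    l ∈ bb W S ↔ l.1 ∈ W ∧ ∀ x ∈ S, x l.1 ≠ l.2 := by
  simp only [bb, mem_filter, mem_univ, true_and]

lemma bb_inj {W : Finset V} {S : Set (V → Bool)} (hS : S.Nonempty) {l l' : V × Bool}
    (hl : l ∈ bb W S) (hl' : l' ∈ bb W S) (e : l.1 = l'.1) : l = l' := by
  obtain ⟨x, hx⟩ := hS
  have h1 := (mem_bb.1 hl).2 x hx
  have h2 := (mem_bb.1 hl').2 x hx
  rw [e] at h1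
  refine Prod.ext e ?_
  revert h1 h2
  cases x l'.1 <;> cases l.2 <;> cases l'.2 <;> simp

lemma bb_card_le {W : Finset V} {S : Set (V → Bool)} (hS : S.Nonempty) :
    (bb W S).card ≤ W.card :=
  card_le_card_of_injOn Prod.fst (fun _ hl => (mem_bb.1 hl).1)
    fun _ hl _ hl' e => bb_inj hS hl hl' e

lemma bb_union {W1 W2 : Finset V} (h : Disjoint W1 W2) (S : Set (V → Bool)) :
    (bb (W1 ∪ W2) S).card = (bb W1 S).card + (bb W2 S).card := by
  rw [← card_union_of_disjoint]
  · congr 1; ext l; simp only [mem_bb, mem_union]; tauto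
  · rw [disjoint_left]
    intro l h1 h2
    exact disjoint_left.1 h (mem_bb.1 h1).1 (mem_bb.1 h2).1

lemma bb_single (W : Finset V) (x : V → Bool) : (bb W {x}).card = W.card := by
  refine le_antisymm (bb_card_le (Set.singleton_nonempty x)) ?_
  refine card_le_card_of_injOn (fun v => (v, !x v)) (fun v hv => ?_) fun v _ w _ e => ?_
  · refine mem_coe.2 (mem_bb.2 ⟨hv, ?_⟩)
    intro y hy
    rw [Set.mem_singleton_iff.1 hy]; simp
  · exact congrArg Prod.fst e

lemma hz_Pc {W : Finset V} {r : ℕ} (h : r ≤ W.card) {S : Set (V → Bool)} (hS : S.Nonempty) :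
    hz (Pc W r) S = ((bb W S).card.choose r : ℝ) / (2 ^ r * (W.card.choose r)) := by
  classical
  have hp := card_Cl_pos h
  rw [← card_Cl]
  simp only [hz, Pi.sub_apply, Pc, avg_apply, u_of_ne hS]
  rw [eq_div_iff hp.ne', sub_mul, div_mul_cancel₀ _ hp.ne', one_mul, ← card_powersetCard]
  have e : powersetCard r (bb W S) = (Cl W r).filter fun c => ¬ (S ∩ sat c).Nonempty := by
    ext c
    simp only [mem_powersetCard, mem_filter, mem_Cl]
    constructor
    · rintro ⟨h1, h2⟩
      refine ⟨⟨h2, fun l hl l' hl' e => bb_inj hS (h1 hl) (h1 hl') e,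
        fun l hl => (mem_bb.1 (h1 hl)).1⟩, ?_⟩
      rintro ⟨x, hx, l, hl, e⟩
      exact (mem_bb.1 (h1 hl)).2 x hx e
    · rintro ⟨⟨h1, h2, h3⟩, h4⟩
      exact ⟨fun l hl => mem_bb.2 ⟨h3 l hl, fun x hx e => h4 ⟨x, hx, l, hl, e⟩⟩, h1⟩
  rw [e, card_filter, card_eq_sum_ones]
  push_cast
  rw [← sum_sub_distrib]
  refine sum_congr rfl fun c _ => ?_
  unfold u
  split_ifs <;> simp

/-! relabelling -/
section relabel
variable {V' : Type} [Fintype V'] [DecidableEq V']

def pull (j : V' ↪ V) (S : Set (V' → Bool)) : Set (V → Bool) := {x | x ∘ j ∈ S}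

lemma Pc_map (j : V' ↪ V) (W : Finset V') (r : ℕ) (f : Fn (V → Bool)) (S : Set (V' → Bool)) :
    Pc (W.map j) r f (pull j S) = Pc W r (fun T => f (pull j T)) S := by
  simp only [Pc, avg_apply, card_Cl, card_map]
  congr 1
  symm
  let e : V' × Bool ↪ V × Bool := j.prodMap (Function.Embedding.refl Bool)
  refine sum_bij (fun c _ => c.map e) ?_ ?_ ?_ ?_
  · intro c hc
    obtain ⟨h1, h2, h3⟩ := mem_Cl.1 hc
    refine mem_Cl.2 ⟨by rw [card_map, h1], ?_, ?_⟩
    · intro l hl l' hl' h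
      obtain ⟨a, ha, rfl⟩ := mem_map.1 hl
      obtain ⟨a', ha', rfl⟩ := mem_map.1 hl'
      rw [h2 a ha a' ha' (j.injective h)]
    · intro l hl
      obtain ⟨a, ha, rfl⟩ := mem_map.1 hl
      exact mem_map_of_mem j (h3 a ha)
  · intro c _ c' _ h
    exact map_injective e h
  · intro c hc
    obtain ⟨h1, h2, h3⟩ := mem_Cl.1 hc
    have hm : (univ.filter fun a => e a ∈ c).map e = c := by
      ext l
      simp only [mem_map, mem_filter, mem_univ, true_and]
      constructor
      · rintro ⟨a, ha, rfl⟩; exact ha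
      · intro hl
        obtain ⟨v, _, hv⟩ := mem_map.1 (h3 l hl)
        have : e (v, l.2) = l := Prod.ext hv rfl
        exact ⟨(v, l.2), by rw [this]; exact hl, this⟩
    refine ⟨univ.filter fun a => e a ∈ c, mem_Cl.2 ⟨?_, ?_, ?_⟩, hm⟩
    · rw [← card_map e, hm, h1]
    · intro a ha a' ha' h
      apply e.injective
      exact h2 _ (mem_filter.1 ha).2 _ (mem_filter.1 ha').2 (congrArg j h)
    · intro a ha
      have := h3 _ (mem_filter.1 ha).2
      exact (mem_map' j).1 this
  · intro c _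
    congr 1
    ext x
    simp only [pull, sat, Set.mem_ofPred_eq, Set.mem_inter_iff, mem_map]
    constructor
    · rintro ⟨h1, l, hl, h⟩
      exact ⟨h1, e l, ⟨l, hl, rfl⟩, h⟩
    · rintro ⟨h1, _, ⟨l, hl, rfl⟩, h⟩
      exact ⟨h1, l, hl, h⟩

lemma Pc_pow_map (j : V' ↪ V) (W : Finset V') (r t : ℕ) (S : Set (V' → Bool)) :
    (Pc (W.map j) r ^ t) u (pull j S) = (Pc W r ^ t) u S := by
  induction t generalizing S with
  | zero =>
    simp only [pow_zero, Module.End.one_apply]
    rcases S.eq_empty_or_nonempty with rfl | ⟨y, hy⟩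
    · simp [pull, u_empty]
    · rw [u_of_ne ⟨y, hy⟩, u_of_ne]
      refine ⟨Function.extend j y (fun _ => true), ?_⟩
      simp only [pull, Set.mem_ofPred_eq]
      rwa [Function.extend_comp j.injective]
  | succ t ih =>
    rw [pow_succ', pow_succ', Module.End.mul_apply, Module.End.mul_apply, Pc_map]
    rw [show (fun T => (Pc (W.map j) r ^ t) u (pull j T)) = (Pc W r ^ t) u from funext ih]

end relabel

/-- satisfiability probability -/
noncomputable def pr (k n t : ℕ) : ℝ := (Pc (univ : Finset (Fin n)) k ^ t) u Set.univ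

lemma Pc_pow_eq (W : Finset V) (r t : ℕ) : (Pc W r ^ t) u Set.univ = pr r W.card t := by
  let j : Fin W.card ↪ V := W.equivFin.symm.toEmbedding.trans (Function.Embedding.subtype _)
  have hj : (univ : Finset (Fin W.card)).map j = W := by
    ext v
    simp only [mem_map, mem_univ, true_and, j]
    constructor
    · rintro ⟨a, rfl⟩; exact (W.equivFin.symm a).2
    · intro hv; exact ⟨W.equivFin ⟨v, hv⟩, by simp⟩
  have := Pc_pow_map j univ r t Set.univ
  rw [hj] at this
  exact this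

lemma u_inter_dep {W1 W2 : Finset V} (h : Disjoint W1 W2) {S T : Set (V → Bool)} (hS : Dep W1 S)
    (hT : Dep W2 T) : u (S ∩ T) = u S * u T := by
  rcases S.eq_empty_or_nonempty with rfl | ⟨x, hx⟩
  · simp [u_empty]
  rcases T.eq_empty_or_nonempty with rfl | ⟨y, hy⟩
  · simp [u_empty]
  rw [u_of_ne ⟨x, hx⟩, u_of_ne ⟨y, hy⟩, u_of_ne, one_mul]
  refine ⟨fun v => if v ∈ W1 then x v else y v, hS x _ (fun v hv => by simp [hv]) hx,
    hT y _ (fun v hv => ?_) hy⟩
  have : v ∉ W1 := fun h' => disjoint_left.1 h h' hv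
  simp [this]

lemma prod_eq {W1 W2 : Finset V} (h : Disjoint W1 W2) {P1 P2 : En (V → Bool)}
    (h1 : IsM (Dep W1) P1) (h2 : IsM (Dep W2) P2) (i j : ℕ) :
    (P1 ^ i) ((P2 ^ j) u) Set.univ = (P1 ^ i) u Set.univ * (P2 ^ j) u Set.univ := by
  have e1 : ∀ S, Dep W1 S → (P2 ^ j) u (S ∩ Set.univ) = ((P2 ^ j) u Set.univ • u) S := by
    intro S hS
    have := h2.pow_cyl Dep.inter (f := u) (g := u S • u) (Y := S) (fun T hT => by
      rw [Set.inter_comm, u_inter_dep h hS hT]; simp) j (Dep.univ W2)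
    rw [Set.inter_comm, this, map_smul]
    simp [mul_comm]
  have := h1.pow_cyl Dep.inter e1 i (Dep.univ W1)
  rw [Set.inter_univ] at this
  rw [this, map_smul]
  simp [mul_comm]

/-- path representation -/
lemma avg_pow {Ω ι : Type} [DecidableEq ι] (C : Finset ι) (A : ι → Set Ω) (m : ℕ) (f : Fn Ω)
    (S : Set Ω) : (avg C A ^ m) f S =
      (∑ F ∈ Fintype.piFinset (fun _ : Fin m => C), f (S ∩ ⋂ i, A (F i))) / (C.card : ℝ) ^ m := by
  induction m generalizing S with
  | zero => simp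
  | succ m ih =>
    rw [pow_succ', Module.End.mul_apply, avg_apply]
    simp only [ih]
    rw [← sum_div, div_div, ← pow_succ, ← sum_product']
    congr 1
    refine sum_bij' (fun p _ => Fin.cons p.1 p.2) (fun F _ => (F 0, Fin.tail F)) ?_ ?_ ?_ ?_ ?_
    · rintro ⟨c, F⟩ hp
      obtain ⟨h1, h2⟩ := mem_product.1 hp
      rw [Fintype.mem_piFinset] at h2 ⊢
      intro i
      refine Fin.cases ?_ (fun i => ?_) i
      · simpa using h1
      · simpa using h2 i
    · intro F hF
      rw [Fintype.mem_piFinset] at hF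
      exact mem_product.2 ⟨hF 0, Fintype.mem_piFinset.2 fun i => hF _⟩
    · rintro ⟨c, F⟩ _; simp
    · intro F _; simp
    · rintro ⟨c, F⟩ _
      congr 1
      ext x
      simp [Fin.forall_fin_succ, and_assoc]

end Vale.Agent.P170
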