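import Mathlib
import Vale.Agent.P170.Cl

namespace Vale.Agent.P170

open Finset

lemma choose_up_nat {B n : ℕ} (h : B ≤ n) (r : ℕ) : B.choose r * n ^ r ≤ n.choose r * B ^ r := by
  induction r with
  | zero => simp
  | succ r ih =>
    have e1 := Nat.choose_succ_right_eq B r
    have e2 := Nat.choose_succ_right_eq n r
    have e3 : (B - r) * n ≤ (n - r) * B := by
      rcases le_total B r with hr | hr
      · rw [Nat.sub_eq_zero_of_le hr]; simp
      · obtain ⟨a, rfl⟩ := Nat.exists_eq_add_of_le hr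
        obtain ⟨b, rfl⟩ := Nat.exists_eq_add_of_le h
        rw [Nat.add_sub_cancel_left, add_assoc, Nat.add_sub_cancel_left]
        nlinarith [Nat.zero_le (r * b)]
    refine Nat.le_of_mul_le_mul_right (c := r + 1) ?_ (Nat.succ_pos r)
    calc B.choose (r + 1) * n ^ (r + 1) * (r + 1)
        = (B.choose (r + 1) * (r + 1)) * n ^ (r + 1) := by ring
      _ = (B.choose r * n ^ r) * ((B - r) * n) := by rw [e1]; ring
      _ ≤ (n.choose r * B ^ r) * ((n - r) * B) := Nat.mul_le_mul ih e3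
      _ = (n.choose r * (n - r)) * B ^ (r + 1) := by ring
      _ = n.choose (r + 1) * B ^ (r + 1) * (r + 1) := by rw [← e2]; ring

lemma choose_up {B n r : ℕ} (h : B ≤ n) (hr : r ≤ n) (hn : 0 < n) :
    (B.choose r : ℝ) / (n.choose r) ≤ ((B : ℝ) / n) ^ r := by
  have h1 : (0 : ℝ) < n.choose r := by exact_mod_cast Nat.choose_pos hr
  have h2 : (0 : ℝ) < n := by exact_mod_cast hn
  rw [div_pow, div_le_div_iff₀ h1 (by positivity), mul_comm ((B : ℝ) ^ r)]
  exact_mod_cast choose_up_nat h r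

lemma choose_low {B n r : ℕ} (hB : r ≤ B) (hr : r ≤ n) (hn : 0 < n) :
    (((B : ℝ) - r) / n) ^ r ≤ (B.choose r : ℝ) / (n.choose r) := by
  have h1 : (0 : ℝ) < n.choose r := by exact_mod_cast Nat.choose_pos hr
  have h2 : (0 : ℝ) < n := by exact_mod_cast hn
  rw [div_pow, div_le_div_iff₀ (by positivity) h1, ← Nat.cast_sub hB]
  have e1 : (B - r) ^ r ≤ B.descFactorial r :=
    (Nat.pow_le_pow_left (by omega) r).trans (Nat.pow_sub_le_descFactorial B r)
  have e2 := Nat.descFactorial_le_pow n r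
  rw [Nat.descFactorial_eq_factorial_mul_choose] at e1 e2
  have : (B - r) ^ r * n.choose r ≤ B.choose r * n ^ r := by
    calc (B - r) ^ r * n.choose r ≤ (r.factorial * B.choose r) * n.choose r :=
          Nat.mul_le_mul_right _ e1
      _ = B.choose r * (r.factorial * n.choose r) := by ring
      _ ≤ _ := Nat.mul_le_mul_left _ e2
  exact_mod_cast this

/-- (N3) -/
lemma pow_le_choose {B n k : ℕ} (hk : 3 ≤ k) (hkn : k ≤ n) {y : ℝ} (hy : 2 * (k : ℝ) ^ 2 ≤ y)
    (hyn : y ≤ n) :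
    ((B : ℝ) / n) ^ k ≤ (1 + 2 * k ^ 2 / y) * ((B.choose k : ℝ) / (n.choose k)) + (y / n) ^ 3 := by
  have hn : 0 < n := by omega
  have h2 : (0 : ℝ) < n := by exact_mod_cast hn
  have hk' : (3 : ℝ) ≤ k := by exact_mod_cast hk
  have hy0 : 0 < y := by nlinarith
  have hc : 0 ≤ (B.choose k : ℝ) / (n.choose k) := by positivity
  rcases le_total (B : ℝ) y with hB | hB
  · have a1 : ((B : ℝ) / n) ^ k ≤ (y / n) ^ k := by gcongr
    have a2 : (y / n) ^ k ≤ (y / n) ^ 3 :=
      pow_le_pow_of_le_one (by positivity) ((div_le_one h2).2 hyn) hk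
    have : 0 ≤ (1 + 2 * k ^ 2 / y) * ((B.choose k : ℝ) / (n.choose k)) := by positivity
    linarith
  · have hkB : k ≤ B := by
      have : (k : ℝ) ≤ B := by nlinarith
      exact_mod_cast this
    have hB0 : (0 : ℝ) < B := by linarith
    have a1 := choose_low hkB hkn hn
    set s : ℝ := k ^ 2 / y with hs
    have hs0 : 0 ≤ s := by positivity
    have hs1 : s ≤ 1 / 2 := by rw [hs, div_le_iff₀ hy0]; linarith
    have a2 : 1 - s ≤ (1 - (k : ℝ) / B) ^ k := by
      have b1 : (k : ℝ) / B ≤ 1 := (div_le_one hB0).2 (by exact_mod_cast hkB)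
      have b2 := one_add_mul_le_pow (a := -((k : ℝ) / B)) (by linarith) k
      have b3 : (k : ℝ) * (k / B) ≤ s := by
        rw [hs, ← mul_div_assoc, ← sq]; gcongr
      rw [← sub_eq_add_neg] at b2
      linarith
    have a3 : (((B : ℝ) - k) / n) ^ k = ((B : ℝ) / n) ^ k * (1 - (k : ℝ) / B) ^ k := by
      rw [← mul_pow]; congr 1; field_simp
    have a4 : 0 ≤ ((B : ℝ) / n) ^ k := by positivity
    have a5 : ((B : ℝ) / n) ^ k * (1 - s) ≤ (B.choose k : ℝ) / (n.choose k) := by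
      rw [a3] at a1
      exact (mul_le_mul_of_nonneg_left a2 a4).trans a1
    have a6 : 0 ≤ (y / n) ^ 3 := by positivity
    have a7 : 2 * (k : ℝ) ^ 2 / y = 2 * s := by rw [hs]; ring
    rw [a7]
    have a8 : 1 ≤ (1 + 2 * s) * (1 - s) := by nlinarith
    nlinarith [mul_le_mul_of_nonneg_left a5 (by linarith : 0 ≤ 1 + 2 * s),
      mul_le_mul_of_nonneg_left a8 a4]

/-- (N2) -/
lemma hz_short {B n r : ℕ} (hr : 2 ≤ r) (hB : B ≤ n) (hrn : r + 1 ≤ n) {lam : ℝ} (hl : 2 ≤ lam)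
    (hln : lam * r ≤ 2 * n) :
    (B.choose r : ℝ) / (2 ^ r * n.choose r) ≤
      lam * ((B.choose (r + 1) : ℝ) / (2 ^ (r + 1) * n.choose (r + 1))) + 4 / lam ^ 2 := by
  have hn : 0 < n := by omega
  have h2 : (0 : ℝ) < n := by exact_mod_cast hn
  have hl0 : 0 < lam := by linarith
  have c1 : (0 : ℝ) < n.choose r := by exact_mod_cast Nat.choose_pos (by omega : r ≤ n)
  have c2 : (0 : ℝ) < n.choose (r + 1) := by exact_mod_cast Nat.choose_pos hrn
  rcases le_total (2 * (n : ℝ)) (lam * ((B : ℝ) - r)) with h | h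
  · have hrB : r ≤ B := by
      have : (r : ℝ) ≤ B := by nlinarith
      exact_mod_cast this
    have e1 : (B.choose (r + 1) : ℝ) * (r + 1) = B.choose r * ((B : ℝ) - r) := by
      rw [← Nat.cast_sub hrB]; exact_mod_cast Nat.choose_succ_right_eq B r
    have e2 : (n.choose (r + 1) : ℝ) * (r + 1) = n.choose r * ((n : ℝ) - r) := by
      rw [← Nat.cast_sub (by omega : r ≤ n)]; exact_mod_cast Nat.choose_succ_right_eq n r
    have hr0 : (0 : ℝ) < (r : ℝ) + 1 := by positivity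
    have hnr : (0 : ℝ) < (n : ℝ) - r := by
      have : (r : ℝ) + 1 ≤ n := by exact_mod_cast hrn
      linarith
    have e3 : (B.choose (r + 1) : ℝ) / (2 ^ (r + 1) * n.choose (r + 1)) =
        (B.choose r : ℝ) / (2 ^ r * n.choose r) * (((B : ℝ) - r) / (2 * ((n : ℝ) - r))) := by
      rw [eq_div_of_mul_eq hr0.ne' e1, eq_div_of_mul_eq hr0.ne' e2]
      field_simp
      ring
    have e4 : 1 ≤ lam * (((B : ℝ) - r) / (2 * ((n : ℝ) - r))) := by
      rw [← mul_div_assoc, le_div_iff₀ (by positivity)]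
      have : (0 : ℝ) ≤ r := Nat.cast_nonneg r
      linarith
    have e5 : 0 ≤ (B.choose r : ℝ) / (2 ^ r * n.choose r) := by positivity
    have e6 : 0 ≤ 4 / lam ^ 2 := by positivity
    rw [e3]
    nlinarith [mul_le_mul_of_nonneg_left e4 e5]
  · have a1 := choose_up hB (by omega : r ≤ n) hn
    have a2 : (B.choose r : ℝ) / (2 ^ r * n.choose r) ≤ ((B : ℝ) / (2 * n)) ^ r := by
      rw [mul_comm ((2 : ℝ) ^ r), ← div_div, mul_comm (2 : ℝ), ← div_div, div_pow _ (2 : ℝ)]
      gcongr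
    have a3 : (B : ℝ) / (2 * n) ≤ 2 / lam := by
      rw [div_le_div_iff₀ (by positivity) hl0]; nlinarith
    have a4 : ((B : ℝ) / (2 * n)) ^ r ≤ (2 / lam) ^ r := by gcongr
    have a5 : (2 / lam) ^ r ≤ (2 / lam) ^ 2 :=
      pow_le_pow_of_le_one (by positivity) ((div_le_one hl0).2 hl) hr
    have a6 : (2 / lam) ^ 2 = 4 / lam ^ 2 := by ring
    have a7 : 0 ≤ lam * ((B.choose (r + 1) : ℝ) / (2 ^ (r + 1) * n.choose (r + 1))) := by
      positivity
    linarith

variable {V : Type} [Fintype V] [DecidableEq V]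

lemma Pc_split {W : Finset V} {x : V} (hx : x ∈ W) {r : ℕ} (hr : r + 2 ≤ W.card) (σ : Bool)
    (f : Fn (V → Bool)) (S : Set (V → Bool)) :
    Pc W (r + 1) f S = (1 - ((r : ℝ) + 1) / W.card) * Pc (W.erase x) (r + 1) f S +
      (((r : ℝ) + 1) / W.card) / 2 *
        avg (Cl (W.erase x) r) (fun c => sat (insert (x, σ) c)) f S +
      (((r : ℝ) + 1) / W.card) / 2 *
        avg (Cl (W.erase x) r) (fun c => sat (insert (x, !σ) c)) f S := by
  obtain ⟨n, hn⟩ : ∃ n, W.card = n + 1 := ⟨W.card - 1, by omega⟩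
  have hn' : (W.erase x).card = n := by rw [card_erase_of_mem hx, hn]; rfl
  simp only [Pc, avg_apply, card_Cl, hn, hn']
  rw [split_sum hx r σ]
  have c1 : (0 : ℝ) < n.choose r := by exact_mod_cast Nat.choose_pos (by omega : r ≤ n)
  have e1 : ((n : ℝ) + 1) * n.choose r = (n + 1).choose (r + 1) * ((r : ℝ) + 1) := by
    exact_mod_cast Nat.add_one_mul_choose_eq n r
  have e2 : (n.choose (r + 1) : ℝ) * (r + 1) = n.choose r * ((n : ℝ) - r) := by
    rw [← Nat.cast_sub (by omega : r ≤ n)]; exact_mod_cast Nat.choose_succ_right_eq n r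
  have hr0 : (0 : ℝ) < (r : ℝ) + 1 := by positivity
  have hnr : (0 : ℝ) < (n : ℝ) - r := by
    have : (r : ℝ) + 1 ≤ n := by exact_mod_cast (by omega : r + 1 ≤ n)
    linarith
  rw [eq_div_of_mul_eq hr0.ne' e1.symm, eq_div_of_mul_eq hr0.ne' e2]
  push_cast
  field_simp
  ring

lemma UT {W : Finset V} {x : V} (hx : x ∈ W) {r : ℕ} (hr2 : 2 ≤ r) (hr : 2 * (r + 1) ≤ W.card)
    (σ : Bool) {lam : ℝ} (hl : 2 ≤ lam) (hln : lam * r ≤ W.card) (L : ℕ) :
    Rs (Pc W (r + 1)) L Set.univ - Rs (Pc W (r + 1)) L {y | y x = σ} ≤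
        L * (((r : ℝ) + 1) / W.card * lam + L * (2 * (((r : ℝ) + 1) / W.card) / lam ^ 2)) ∧
      Rs (Pc (W.erase x) (r + 1)) L Set.univ - Rs (Pc W (r + 1)) L Set.univ ≤
        L * (((r : ℝ) + 1) / W.card * lam + L * (2 * (((r : ℝ) + 1) / W.card) / lam ^ 2)) := by
  set a : ℝ := ((r : ℝ) + 1) / W.card with ha
  have hW0 : (0 : ℝ) < W.card := by exact_mod_cast (by omega : 0 < W.card)
  have ha0 : 0 ≤ a := by positivity
  have ha1 : a ≤ 1 / 2 := by
    rw [ha, div_le_iff₀ hW0]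
    have : 2 * ((r : ℝ) + 1) ≤ W.card := by exact_mod_cast hr
    linarith
  have hc : (W.erase x).card = W.card - 1 := card_erase_of_mem hx
  set W' := W.erase x with hW'
  have hP : IsM (Dep W) (Pc W (r + 1)) := Pc_isM (by omega)
  have hP' : IsM (Dep W') (Pc W' (r + 1)) := Pc_isM (by omega)
  have hP'' : IsM (Dep W') (Pc W' r) := Pc_isM (by omega)
  have hne : (Cl W' r).Nonempty := by
    have := card_Cl_pos (W := W') (r := r) (by omega); rw [← card_pos]; exact_mod_cast this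
  have hA : ∀ τ : Bool, IsM (fun _ => True) (avg (Cl W' r) (fun c => sat (insert (x, τ) c))) :=
    fun τ => avg_isM hne fun _ _ => trivial
  set U : En (V → Bool) := (1 - a) • Pc W' (r + 1) + a • 1 with hU
  set T : En (V → Bool) := (1 - a) • Pc W' (r + 1) +
    a • ((1 / 2 : ℝ) • (1 : En (V → Bool)) + (1 / 2 : ℝ) • Pc W' r) with hT
  have hUm : IsM (Dep W') U := hP'.comb (IsM.one (Dep.univ _)) (by linarith) ha0 (by ring)
  have hTm : IsM (Dep W') T := hP'.comb ((IsM.one (Dep.univ _)).comb hP'' (by norm_num)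
    (by norm_num) (by norm_num)) (by linarith) ha0 (by ring)
  have hzU : ∀ S, hz U S = (1 - a) * hz (Pc W' (r + 1)) S := by
    intro S; simp [hz, hU]; ring
  have hzT : ∀ S, hz T S = (1 - a) * hz (Pc W' (r + 1)) S + a / 2 * hz (Pc W' r) S := by
    intro S; simp [hz, hT]; ring
  -- (b)
  have fb : ∀ f S, S ⊆ {y : V → Bool | y x = σ} → Pc W (r + 1) f S = T f S := by
    intro f S hS
    rw [Pc_split hx (by omega) σ]
    have e1 : avg (Cl W' r) (fun c => sat (insert (x, σ) c)) f S = f S := by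
      rw [avg_apply, sum_congr rfl (g := fun _ => f S)]
      · have := card_Cl_pos (W := W') (r := r) (by omega)
        simp only [sum_const, nsmul_eq_mul]; field_simp
      · intro c _
        congr 1
        exact Set.inter_eq_left.2 fun y hy => ⟨(x, σ), mem_insert_self _ _, hS hy⟩
    have e2 : avg (Cl W' r) (fun c => sat (insert (x, !σ) c)) f S = Pc W' r f S := by
      rw [Pc, avg_apply, avg_apply]
      congr 1
      refine sum_congr rfl fun c _ => ?_
      congr 1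
      ext y
      constructor
      · rintro ⟨hy, l, hl, e⟩
        rcases mem_insert.1 hl with rfl | hl
        · have : y x = σ := hS hy
          simp [this] at e
        · exact ⟨hy, l, hl, e⟩
      · rintro ⟨hy, l, hl, e⟩
        exact ⟨hy, l, mem_insert_of_mem hl, e⟩
    rw [e1, e2]
    simp [hT, ← ha]; ring
  -- (c)
  have fc : Rs (Pc W (r + 1)) L Set.univ - Rs U L Set.univ ≤ L * (0 + L * 0) := by
    refine hUm.compare hP le_rfl le_rfl (fun S => ?_) L _
    have e := Pc_split hx (by omega : r + 2 ≤ W.card) σ u S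
    have b1 := (hA σ).le_self u_mono S
    have b2 := (hA (!σ)).le_self u_mono S
    simp only [hz, hU, Pi.sub_apply, LinearMap.add_apply, LinearMap.smul_apply, Pi.add_apply,
      Pi.smul_apply, smul_eq_mul, Module.End.one_apply]
    rw [e, ← ha, ← hW']
    nlinarith
  have ff : Rs (Pc W' (r + 1)) L Set.univ - Rs U L Set.univ ≤ L * (0 + L * 0) := by
    refine hUm.compare hP' le_rfl le_rfl (fun S => ?_) L _
    rw [hzU]
    have := hP'.hz_nonneg S
    nlinarith
  have fe : Rs U L Set.univ - Rs T L Set.univ ≤ L * (a * lam + L * (2 * a / lam ^ 2)) := by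
    refine hTm.compare hUm (by positivity) (by positivity) (fun S => ?_) L _
    rw [hzU, hzT]
    have h0 := hP'.hz_nonneg S
    have : hz (Pc W' r) S ≤ lam * hz (Pc W' (r + 1)) S + 4 / lam ^ 2 := by
      rcases S.eq_empty_or_nonempty with rfl | hS
      · rw [hP''.hz_empty, hP'.hz_empty]; positivity
      · rw [hz_Pc (by omega) hS, hz_Pc (by omega) hS]
        refine hz_short hr2 (bb_card_le hS) (by omega) hl (hln.trans ?_)
        exact_mod_cast (by omega : W.card ≤ 2 * W'.card)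
    have b1 := mul_le_mul_of_nonneg_left this (by positivity : 0 ≤ a / 2)
    have b2 : a / 2 * (4 / lam ^ 2) = 2 * a / lam ^ 2 := by ring
    have b3 : 0 ≤ a * lam * hz (Pc W' (r + 1)) S := by positivity
    nlinarith
  have fd : Rs (Pc W (r + 1)) L {y | y x = σ} = Rs T L Set.univ := by
    rw [Rs_apply, Rs_apply]
    refine sum_congr rfl fun t _ => ?_
    rw [hP.pow_congr fb t u le_rfl]
    have := hTm.pow_cyl Dep.inter (f := u) (g := u) (Y := {y | y x = σ}) (fun S hS => by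
      have hd : Dep {x} {y : V → Bool | y x = σ} := fun y z h hy => by
        have := h x (mem_singleton_self x)
        simp only [Set.mem_ofPred_eq] at hy ⊢
        rw [← this, hy]
      rw [u_inter_dep (by simp [hW']) hS hd, u_of_ne (S := {y : V → Bool | y x = σ}) ⟨fun _ => σ, rfl⟩,
        mul_one]) t (Dep.univ _)
    rwa [Set.univ_inter] at this
  have fg : Rs (Pc W (r + 1)) L {y | y x = σ} ≤ Rs (Pc W (r + 1)) L Set.univ := by
    rw [Rs_apply, Rs_apply]
    exact sum_le_sum fun t _ => hP.pow_monotone t u_mono (Set.subset_univ _)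
  constructor <;> linarith

lemma var_Pc {W : Finset V} {r : ℕ} (hr2 : 2 ≤ r) (hr : 2 * (r + 1) ≤ W.card)
    {lam μ : ℝ} (hl : 2 ≤ lam) (hln : lam * r ≤ W.card) (M : ℕ) (hμ0 : 0 ≤ μ) (hμ : M ≤ μ ^ 3) :
    Ns (Pc W (r + 1)) M Set.univ - Rs (Pc W (r + 1)) M Set.univ ^ 2 ≤
      2 * M * (μ * ((2 * M : ℕ) * (((r : ℝ) + 1) / W.card * lam +
        (2 * M : ℕ) * (2 * (((r : ℝ) + 1) / W.card) / lam ^ 2)))) := by
  have hP : IsM (Dep W) (Pc W (r + 1)) := Pc_isM (by omega)
  have hP1 : IsM (Dep W) (Pc W 1) := Pc_isM (by omega)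
  refine (hP.var_le M _).trans (mul_le_mul_of_nonneg_left ?_ (by positivity))
  set E := ((2 * M : ℕ) : ℝ) * (((r : ℝ) + 1) / W.card * lam +
        (2 * M : ℕ) * (2 * (((r : ℝ) + 1) / W.card) / lam ^ 2)) with hE
  have h1 : ∀ S, (hz (Pc W (r + 1)) * Rs (Pc W (r + 1)) M) S ≤ (μ • hz (Pc W 1)) S := by
    intro S
    simp only [Pi.mul_apply, Pi.smul_apply, smul_eq_mul]
    have a0 := hP1.hz_nonneg S
    have a1 := hP.hz_mul_Rs M S
    have a2 : hz (Pc W (r + 1)) S ≤ hz (Pc W 1) S ^ 3 := by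
      have a3 := hP1.hz_le_one S
      refine le_trans ?_ (pow_le_pow_of_le_one a0 a3 (by omega : 3 ≤ r + 1))
      rcases S.eq_empty_or_nonempty with rfl | hS
      · rw [hP.hz_empty]; positivity
      · rw [hz_Pc (by omega) hS, hz_Pc (by omega) hS]
        have := choose_up (bb_card_le (W := W) hS) (by omega : r + 1 ≤ W.card) (by omega)
        simp only [Nat.choose_one_right, pow_one]
        rw [mul_comm ((2 : ℝ) ^ (r + 1)), ← div_div, mul_comm (2 : ℝ), ← div_div,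
          div_pow _ (2 : ℝ)]
        gcongr
    rcases le_total 1 (μ * hz (Pc W 1) S) with h | h
    · linarith
    · have a4 := hP.Rs_le M S
      have a5 := hP.Rs_nonneg M S
      have a6 := hP.hz_nonneg S
      have a7 : hz (Pc W (r + 1)) S * Rs (Pc W (r + 1)) M S ≤ hz (Pc W 1) S ^ 3 * μ ^ 3 :=
        mul_le_mul a2 (a4.trans hμ) a5 (by positivity)
      have a8 : (μ * hz (Pc W 1) S) ^ 3 ≤ (μ * hz (Pc W 1) S) ^ 1 :=
        pow_le_pow_of_le_one (by positivity) h (by norm_num)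
      rw [mul_pow, pow_one] at a8
      linarith
  have h2 : ∑ t ∈ range (2 * M), (Pc W (r + 1) ^ t) (hz (Pc W 1)) Set.univ ≤ E := by
    have e1 : ∑ t ∈ range (2 * M), (Pc W (r + 1) ^ t) (hz (Pc W 1)) Set.univ =
        Rs (Pc W (r + 1)) (2 * M) Set.univ - Pc W 1 (Rs (Pc W (r + 1)) (2 * M)) Set.univ := by
      rw [Rs, map_sum, Finset.sum_apply, Finset.sum_apply, ← sum_sub_distrib]
      refine sum_congr rfl fun t _ => ?_
      rw [hz, map_sub, ← Module.End.mul_apply (Pc W 1), ((hP1.comm hP).pow_right t).eq]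
      rfl
    rw [e1, Pc, Pc, avg_apply, ← Pc]
    have hp := card_Cl_pos (W := W) (r := 1) (by omega)
    have : ∀ c ∈ Cl W 1, Rs (Pc W (r + 1)) (2 * M) Set.univ - E ≤
        Rs (Pc W (r + 1)) (2 * M) (Set.univ ∩ sat c) := by
      intro c hc
      obtain ⟨h1, -, h3⟩ := mem_Cl.1 hc
      obtain ⟨⟨x, σ⟩, rfl⟩ := card_eq_one.1 h1
      have hx : x ∈ W := h3 _ (mem_singleton_self _)
      have := (UT hx hr2 hr σ hl hln (2 * M)).1
      have e : Set.univ ∩ sat {(x, σ)} = {y : V → Bool | y x = σ} := by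
        ext y; simp [sat]
      rw [e]; linarith
    have := sum_le_sum this
    simp only [sum_const, nsmul_eq_mul] at this
    rw [sub_le_comm, le_div_iff₀ hp]
    linarith
  refine le_trans (sum_le_sum fun t _ => hP.pow_loc t fun T _ => h1 T) ?_
  simp only [map_smul, Pi.smul_apply, smul_eq_mul, ← mul_sum]
  exact mul_le_mul_of_nonneg_left h2 hμ0

lemma interp {W1 W2 : Finset V} (hd : Disjoint W1 W2) {k : ℕ} (hk : 3 ≤ k) (h1 : k ≤ W1.card)
    (h2 : k ≤ W2.card) {y δ : ℝ} (hy : 2 * (k : ℝ) ^ 2 ≤ y) (hy1 : y ≤ W1.card) (hy2 : y ≤ W2.card)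
    (hδ1 : (y / W1.card) ^ 3 ≤ δ) (hδ2 : (y / W2.card) ^ 3 ≤ δ) (L : ℕ) :
    Rs (((W1.card : ℝ) / (W1.card + W2.card)) • Pc W1 k +
        ((W2.card : ℝ) / (W1.card + W2.card)) • Pc W2 k) L Set.univ -
      Rs (Pc (W1 ∪ W2) k) L Set.univ ≤ L * (2 * k ^ 2 / y + L * δ) := by
  have hc : (W1 ∪ W2).card = W1.card + W2.card := card_union_of_disjoint hd
  have n1 : (0 : ℝ) < W1.card := by exact_mod_cast (by omega : 0 < W1.card)
  have n2 : (0 : ℝ) < W2.card := by exact_mod_cast (by omega : 0 < W2.card)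
  have hk' : (3 : ℝ) ≤ k := by exact_mod_cast hk
  have hy0 : 0 < y := by nlinarith
  have hδ : 0 ≤ δ := le_trans (by positivity) hδ1
  set θ1 : ℝ := (W1.card : ℝ) / (W1.card + W2.card) with hθ1
  set θ2 : ℝ := (W2.card : ℝ) / (W1.card + W2.card) with hθ2
  have t1 : 0 ≤ θ1 := by positivity
  have t2 : 0 ≤ θ2 := by positivity
  have t12 : θ1 + θ2 = 1 := by rw [hθ1, hθ2]; field_simp
  have hP : IsM (Dep (W1 ∪ W2)) (Pc (W1 ∪ W2) k) := Pc_isM (by omega)
  have hP1 : IsM (fun _ => True) (Pc W1 k) := (Pc_isM h1).mono_D fun _ _ => trivial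
  have hP2 : IsM (fun _ => True) (Pc W2 k) := (Pc_isM h2).mono_D fun _ _ => trivial
  have hQ := hP1.comb hP2 t1 t2 t12
  refine hP.compare hQ (by positivity) hδ (fun S => ?_) L _
  rcases S.eq_empty_or_nonempty with rfl | hS
  · rw [hP.hz_empty, hQ.hz_empty]; simpa using hδ
  have e : hz (θ1 • Pc W1 k + θ2 • Pc W2 k) S = θ1 * hz (Pc W1 k) S + θ2 * hz (Pc W2 k) S := by
    simp only [hz, Pi.sub_apply, LinearMap.add_apply, LinearMap.smul_apply, Pi.add_apply,
      Pi.smul_apply, smul_eq_mul]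
    linear_combination (-u S) * t12
  rw [e, hz_Pc (by omega) hS, hz_Pc h1 hS, hz_Pc h2 hS]
  have a0 := choose_up (bb_card_le (W := W1 ∪ W2) hS) (by omega : k ≤ (W1 ∪ W2).card) (by omega)
  have a1 := pow_le_choose (B := (bb W1 S).card) hk h1 hy hy1
  have a2 := pow_le_choose (B := (bb W2 S).card) hk h2 hy hy2
  have a3 := (convexOn_pow (𝕜 := ℝ) k).2 (x := ((bb W1 S).card : ℝ) / W1.card)
    (y := ((bb W2 S).card : ℝ) / W2.card) (Set.mem_Ici.2 (by positivity))
    (Set.mem_Ici.2 (by positivity)) t1 t2 t12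
  simp only [smul_eq_mul] at a3
  have a4 : θ1 * (((bb W1 S).card : ℝ) / W1.card) + θ2 * (((bb W2 S).card : ℝ) / W2.card) =
      ((bb (W1 ∪ W2) S).card : ℝ) / (W1 ∪ W2).card := by
    rw [bb_union hd, hc, hθ1, hθ2]; push_cast; field_simp
  rw [a4] at a3
  set q := ((bb (W1 ∪ W2) S).card.choose k : ℝ) / ((W1 ∪ W2).card.choose k)
  set q1 := ((bb W1 S).card.choose k : ℝ) / (W1.card.choose k)
  set q2 := ((bb W2 S).card.choose k : ℝ) / (W2.card.choose k)
  have hq : ∀ a b : ℝ, a / (2 ^ k * b) = (a / b) / 2 ^ k := fun a b => by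
    rw [div_div, mul_comm]
  rw [hq, hq, hq]
  have b1 := mul_le_mul_of_nonneg_left (a1.trans (add_le_add_right hδ1 _)) t1
  have b2 := mul_le_mul_of_nonneg_left (a2.trans (add_le_add_right hδ2 _)) t2
  have b3 : q ≤ (1 + 2 * k ^ 2 / y) * (θ1 * q1 + θ2 * q2) + δ := by
    have : θ1 * δ + θ2 * δ = δ := by rw [← add_mul, t12, one_mul]
    nlinarith
  have b4 : (1 : ℝ) ≤ 2 ^ k := one_le_pow₀ (by norm_num)
  have b5 : δ / 2 ^ k ≤ δ := div_le_self hδ b4
  have b6 : q / 2 ^ k ≤ ((1 + 2 * k ^ 2 / y) * (θ1 * q1 + θ2 * q2) + δ) / 2 ^ k := by gcongr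
  have b7 : ((1 + 2 * k ^ 2 / y) * (θ1 * q1 + θ2 * q2) + δ) / 2 ^ k =
      (1 + 2 * k ^ 2 / y) * (θ1 * (q1 / 2 ^ k) + θ2 * (q2 / 2 ^ k)) + δ / 2 ^ k := by ring
  change q / 2 ^ k - (θ1 * (q1 / 2 ^ k) + θ2 * (q2 / 2 ^ k)) ≤
    2 * k ^ 2 / y * (θ1 * (q1 / 2 ^ k) + θ2 * (q2 / 2 ^ k)) + δ
  linarith

end Vale.Agent.P170
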