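import Mathlib
import Vale.Agent.P170.Est

namespace Vale.Agent.P170

open Finset

lemma pr_upper {k n : ℕ} (hk : k ≤ n) (t : ℕ) : pr k n t ≤ 2 ^ n * (1 - 1 / 2 ^ k) ^ t := by
  have hP : IsM (Dep univ) (Pc (univ : Finset (Fin n)) k) := Pc_isM (by simpa using hk)
  have h1 := hP.pow_loc t (f := u) (g := ∑ x : Fin n → Bool, fun T => u (T ∩ {x}))
    (S := Set.univ) (fun T _ => by
      rw [Finset.sum_apply]
      rcases T.eq_empty_or_nonempty with rfl | ⟨x, hx⟩
      · rw [u_empty]; exact sum_nonneg fun _ _ => u_nonneg _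
      · rw [u_of_ne ⟨x, hx⟩]
        have := single_le_sum (f := fun y : Fin n → Bool => u (T ∩ {y})) (s := univ)
          (fun _ _ => u_nonneg _) (mem_univ x)
        rwa [u_of_ne (S := T ∩ {x}) ⟨x, hx, rfl⟩] at this)
  refine h1.trans ?_
  rw [map_sum, Finset.sum_apply]
  have : ∀ x ∈ (univ : Finset (Fin n → Bool)),
      (Pc (univ : Finset (Fin n)) k ^ t) (fun T => u (T ∩ {x})) Set.univ ≤ (1 - 1 / 2 ^ k) ^ t := by
    intro x _
    rw [hP.pow_shift, Set.univ_inter]
    refine (hP.pow_u_decay t _).trans (le_of_eq ?_)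
    rw [hz_Pc (by simpa using hk) (Set.singleton_nonempty x), bb_single]
    have : (0 : ℝ) < (univ : Finset (Fin n)).card.choose k := by
      exact_mod_cast Nat.choose_pos (by simpa using hk)
    congr 2; field_simp
  refine (sum_le_sum this).trans (le_of_eq ?_)
  simp

lemma hall_sat {n m k : ℕ} (hmn : m ≤ n) (F : Fin m → Finset (Fin n × Bool))
    (hF : ∀ i, F i ∈ Cl (univ : Finset (Fin n)) k)
    (hun : ¬ (Set.univ ∩ ⋂ i, sat (F i)).Nonempty) :
    ∃ J : Finset (Fin m), J.Nonempty ∧ ∃ Y : Finset (Fin n), Y.card = J.card ∧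
      ∀ i ∈ J, F i ∈ Cl Y k := by
  by_contra hcon
  apply hun
  have hall : ∀ J : Finset (Fin m), J.card ≤ (J.biUnion fun i => (F i).image Prod.fst).card := by
    intro J
    by_contra hlt
    push Not at hlt
    apply hcon
    have hJ : J.card ≤ n := by have := card_le_univ J; simp at this; omega
    obtain ⟨Y, hY1, -, hY3⟩ := exists_subsuperset_card_eq
      (subset_univ (J.biUnion fun i => (F i).image Prod.fst)) hlt.le (by simpa using hJ)
    refine ⟨J, by rw [← card_pos]; omega, Y, hY3, fun i hi => ?_⟩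
    obtain ⟨h1, h2, -⟩ := mem_Cl.1 (hF i)
    exact mem_Cl.2 ⟨h1, h2, fun l hl => hY1 (mem_biUnion.2 ⟨i, hi, mem_image_of_mem _ hl⟩)⟩
  obtain ⟨f, hf, hf'⟩ := (all_card_le_biUnion_card_iff_exists_injective _).1 hall
  choose l hl hl' using fun i => mem_image.1 (hf' i)
  refine ⟨Function.extend f (fun i => (l i).2) (fun _ => true), trivial, Set.mem_iInter.2 fun i => ?_⟩
  refine ⟨l i, hl i, ?_⟩
  rw [hl' i, hf.extend_apply]

lemma geo_third (m : ℕ) : ∑ j ∈ range m, (1 / 3 : ℝ) ^ (j + 1) ≤ 1 / 2 - (1 / 3) ^ m / 2 := by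
  induction m with
  | zero => simp
  | succ m ih => rw [sum_range_succ, pow_succ]; linarith

lemma term_bd {n m j k : ℕ} (hk : 2 ≤ k) (hkn : k ≤ n) (hjn : j ≤ n) (hm : 27 * m ≤ n) :
    (m.choose j : ℝ) * (n.choose j * ((j.choose k : ℝ) / n.choose k) ^ j) ≤ (1 / 3) ^ j := by
  have hn : 0 < n := by omega
  have hn' : (0 : ℝ) < n := by exact_mod_cast hn
  have a1 : (j.choose k : ℝ) / n.choose k ≤ ((j : ℝ) / n) ^ 2 :=
    (choose_up hjn hkn hn).trans (pow_le_pow_of_le_one (by positivity)
      ((div_le_one hn').2 (by exact_mod_cast hjn)) hk)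
  have a2 : (m.choose j : ℝ) ≤ m ^ j / j.factorial := Nat.choose_le_pow_div j m
  have a3 : (n.choose j : ℝ) ≤ n ^ j / j.factorial := Nat.choose_le_pow_div j n
  have a4 : (j : ℝ) ^ j / j.factorial ≤ 3 ^ j := by
    refine (Real.pow_div_factorial_le_exp (j : ℝ) (Nat.cast_nonneg j) j).trans ?_
    rw [← Real.exp_one_pow]
    gcongr
    exact Real.exp_one_lt_three.le
  have hf : (0 : ℝ) < j.factorial := by exact_mod_cast j.factorial_pos
  have a5 : (m : ℝ) / n ≤ 1 / 27 := by
    rw [div_le_div_iff₀ hn' (by norm_num)]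
    have : (27 : ℝ) * m ≤ n := by exact_mod_cast hm
    linarith
  calc (m.choose j : ℝ) * (n.choose j * ((j.choose k : ℝ) / n.choose k) ^ j)
      ≤ (m ^ j / j.factorial) * (n ^ j / j.factorial * (((j : ℝ) / n) ^ 2) ^ j) := by gcongr
    _ = ((m : ℝ) / n) ^ j * ((j : ℝ) ^ j / j.factorial) ^ 2 := by
        rw [← pow_mul, mul_comm 2 j, pow_mul]; simp only [div_pow]; field_simp
    _ ≤ (1 / 27) ^ j * (3 ^ j) ^ 2 := by gcongr
    _ = (1 / 3) ^ j := by
        rw [← pow_mul, mul_comm j 2, pow_mul, ← mul_pow]; norm_num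

lemma pr_lower {k n m : ℕ} (hk : 2 ≤ k) (hkn : k ≤ n) (hm : 27 * m ≤ n) : 1 / 2 ≤ pr k n m := by
  classical
  set C := Cl (univ : Finset (Fin n)) k with hC
  have hN : (0 : ℝ) < C.card := card_Cl_pos (by simpa using hkn)
  rw [pr, Pc, avg_pow, le_div_iff₀ (by positivity)]
  set Pi := Fintype.piFinset (fun _ : Fin m => C) with hPi
  have hPic : (Pi.card : ℝ) = (C.card : ℝ) ^ m := by simp [hPi]
  let G : Finset (Fin m) → Finset (Fin n) → Finset (Fin m → Finset (Fin n × Bool)) :=
    fun J Y => Fintype.piFinset fun i => if i ∈ J then Cl Y k else C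
  let I : Finset (Finset (Fin m)) := univ.filter Finset.Nonempty
  have h1 : ∀ F ∈ Pi, 1 - ∑ J ∈ I, ∑ Y ∈ powersetCard J.card (univ : Finset (Fin n)),
      (if F ∈ G J Y then (1 : ℝ) else 0) ≤ u (Set.univ ∩ ⋂ i, sat (F i)) := by
    intro F hF
    have hnn : ∀ J, 0 ≤ ∑ Y ∈ powersetCard (Finset.card J) (univ : Finset (Fin n)),
      (if F ∈ G J Y then (1 : ℝ) else 0) := fun J => sum_nonneg fun _ _ => by positivity
    by_cases hs : (Set.univ ∩ ⋂ i, sat (F i)).Nonempty
    · rw [u_of_ne hs]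
      have := sum_nonneg (s := I) fun J _ => hnn J
      linarith
    · obtain ⟨J, hJ, Y, hY, hJY⟩ := hall_sat (by omega) F (Fintype.mem_piFinset.1 hF) hs
      have b1 := single_le_sum (s := I) (fun J _ => hnn J) (mem_filter.2 ⟨mem_univ J, hJ⟩)
      have b2 := single_le_sum (s := powersetCard J.card (univ : Finset (Fin n)))
        (f := fun Y => if F ∈ G J Y then (1 : ℝ) else 0) (fun _ _ => by positivity)
        (mem_powersetCard.2 ⟨subset_univ Y, hY⟩)
      have b3 : F ∈ G J Y := Fintype.mem_piFinset.2 fun i => by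
        split_ifs with h
        · exact hJY i h
        · exact Fintype.mem_piFinset.1 hF i
      simp only [b3, if_true] at b2
      have := u_nonneg (Set.univ ∩ ⋂ i, sat (F i))
      linarith
  refine le_trans ?_ (sum_le_sum h1)
  rw [sum_sub_distrib, sum_comm]
  simp only [sum_const, nsmul_eq_mul, mul_one, hPic]
  have h2 : ∀ J ∈ I, ∑ F ∈ Pi, ∑ Y ∈ powersetCard J.card (univ : Finset (Fin n)),
      (if F ∈ G J Y then (1 : ℝ) else 0) ≤
      (n.choose J.card * ((J.card.choose k : ℝ) / n.choose k) ^ J.card) * (C.card : ℝ) ^ m := by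
    intro J _
    rw [sum_comm]
    have : ∀ Y ∈ powersetCard J.card (univ : Finset (Fin n)),
        ∑ F ∈ Pi, (if F ∈ G J Y then (1 : ℝ) else 0) ≤
        ((J.card.choose k : ℝ) / n.choose k) ^ J.card * (C.card : ℝ) ^ m := by
      intro Y hY
      have hYc := (mem_powersetCard.1 hY).2
      rw [sum_boole]
      have c1 : ((Pi.filter fun F => F ∈ G J Y).card : ℝ) ≤ (G J Y).card := by
        exact_mod_cast card_le_card fun F hF => (mem_filter.1 hF).2
      refine c1.trans (le_of_eq ?_)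
      have c2 : ((Cl Y k).card : ℝ) = ((J.card.choose k : ℝ) / n.choose k) * C.card := by
        have : (0 : ℝ) < n.choose k := by exact_mod_cast Nat.choose_pos hkn
        rw [hC, card_Cl, card_Cl, hYc]; simp only [card_univ, Fintype.card_fin]; field_simp
      simp only [G, Fintype.card_piFinset, Nat.cast_prod]
      rw [prod_congr rfl (g := fun i => (if i ∈ J then ((J.card.choose k : ℝ) / n.choose k) else 1)
        * (C.card : ℝ)) (fun i _ => by split_ifs <;> simp [c2])]
      rw [prod_mul_distrib, prod_ite_mem]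
      simp [div_pow]
    refine (sum_le_sum this).trans (le_of_eq ?_)
    simp only [sum_const, card_powersetCard, card_univ, Fintype.card_fin, nsmul_eq_mul]; ring
  have h3 : ∑ J ∈ I, (n.choose J.card * ((J.card.choose k : ℝ) / n.choose k) ^ J.card) ≤ 1 / 2 := by
    have e1 : ∑ J ∈ I, (n.choose J.card * ((J.card.choose k : ℝ) / n.choose k) ^ J.card) =
        ∑ J ∈ powerset (univ : Finset (Fin m)), (fun j : ℕ => if j = 0 then (0 : ℝ) else
          (n.choose j * ((j.choose k : ℝ) / n.choose k) ^ j)) J.card := by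
      rw [powerset_univ, sum_filter]
      refine sum_congr rfl fun J _ => ?_
      by_cases h : J.Nonempty
      · simp [h, h.card_pos.ne']
      · simp [h, not_nonempty_iff_eq_empty.1 h]
    rw [e1, sum_powerset_apply_card (fun j : ℕ => if j = 0 then (0 : ℝ) else
      (n.choose j * ((j.choose k : ℝ) / n.choose k) ^ j)), card_univ, Fintype.card_fin, sum_range_succ']
    simp only [nsmul_eq_mul, if_true, mul_zero, add_zero, Nat.succ_ne_zero, if_false]
    refine le_trans (sum_le_sum fun j hj => term_bd hk hkn (by have := mem_range.1 hj; omega) hm) ?_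
    have := geo_third m
    have : 0 ≤ (1 / 3 : ℝ) ^ m / 2 := by positivity
    linarith
  have h4 := sum_le_sum h2
  rw [← sum_mul] at h4
  have : 0 ≤ (C.card : ℝ) ^ m := by positivity
  nlinarith

end Vale.Agent.P170
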