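import Mathlib

namespace Vale.Agent.P170

open Filter Topology

noncomputable def xr (n : ℕ) : ℝ := (n : ℝ) ^ (1 / 9 : ℝ)

lemma xr_nonneg (n : ℕ) : 0 ≤ xr n := Real.rpow_nonneg (Nat.cast_nonneg n) _

lemma xr_pow (n : ℕ) : xr n ^ 9 = n := by
  rw [xr, ← Real.rpow_natCast, ← Real.rpow_mul (Nat.cast_nonneg n)]; norm_num

lemma le_xr {n : ℕ} {X : ℝ} (h : X ^ 9 ≤ n) : X ≤ xr n := by
  rw [← xr_pow] at h
  exact le_of_pow_le_pow_left₀ (by norm_num) (xr_nonneg n) h

lemma xr_mono {m n : ℕ} (h : m ≤ n) : xr m ≤ xr n :=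
  le_xr (by rw [xr_pow]; exact_mod_cast h)

lemma xr_pos {n : ℕ} (h : 1 ≤ n) : 0 < xr n :=
  lt_of_lt_of_le one_pos (le_xr (by simpa using h))

lemma xr_ratio {m n : ℕ} (h : 3 * m ≤ 2 * n) : xr m ≤ 24 / 25 * xr n := by
  refine le_of_pow_le_pow_left₀ (n := 9) (by norm_num) (by have := xr_nonneg n; positivity) ?_
  rw [mul_pow, xr_pow, xr_pow]
  have : (3 : ℝ) * m ≤ 2 * n := by exact_mod_cast h
  have : (0 : ℝ) ≤ n := Nat.cast_nonneg n
  nlinarith

lemma xr_tendsto : Tendsto xr atTop atTop :=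
  (tendsto_rpow_atTop (by norm_num)).comp tendsto_natCast_atTop_atTop

lemma seq_conv (ρ : ℕ → ℝ) (K C : ℝ) (hK : 0 ≤ K) (N : ℕ) (hN : 1 ≤ N) (hC : ∀ n, ρ n ≤ C)
    (H1 : ∀ a b, N ≤ a → a ≤ b → b ≤ 2 * a → min (ρ a) (ρ b) - K / xr (a + b) ≤ ρ (a + b))
    (H2 : ∀ n, N ≤ n → ρ n - K / xr n ≤ ρ (n + 1)) :
    ∃ α, Tendsto ρ atTop (𝓝 α) := by
  have A : ∀ n0, N ≤ n0 → ∀ t, 1 ≤ t →
      ρ n0 - 24 * K / xr n0 + 24 * K / xr (t * n0) ≤ ρ (t * n0) := by
    intro n0 hn0 t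
    induction t using Nat.strong_induction_on with
    | _ t ih =>
      intro ht
      rcases ht.eq_or_lt with rfl | ht
      · simp
      obtain ⟨a, b, rfl, ha, hab, hba⟩ : ∃ a b, t = a + b ∧ 1 ≤ a ∧ a ≤ b ∧ b ≤ 2 * a :=
        ⟨t / 2, t - t / 2, by omega, by omega, by omega, by omega⟩
      have h1 := ih a (by omega) ha
      have h2 := ih b (by omega) (by omega)
      have h3 := H1 (a * n0) (b * n0) (by nlinarith) (by nlinarith) (by nlinarith)
      rw [← add_mul] at h3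
      have p0 : 0 < xr ((a + b) * n0) := xr_pos (by nlinarith)
      have key : ∀ c, 1 ≤ c → c ≤ b → 25 * K / xr ((a + b) * n0) ≤ 24 * K / xr (c * n0) := by
        intro c hc hcb
        have := xr_ratio (m := c * n0) (n := (a + b) * n0) (by nlinarith)
        have p1 : 0 < xr (c * n0) := xr_pos (by nlinarith)
        rw [div_le_div_iff₀ p0 p1]
        nlinarith
      have k1 := key a ha hab
      have k2 := key b (by omega) le_rfl
      have e : 25 * K / xr ((a + b) * n0) =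
          24 * K / xr ((a + b) * n0) + K / xr ((a + b) * n0) := by ring
      rcases min_choice (ρ (a * n0)) (ρ (b * n0)) with h | h <;> rw [h] at h3 <;> linarith
  have B : ∀ m, N ≤ m → ∀ s : ℕ, ρ m - s * K / xr m ≤ ρ (m + s) := by
    intro m hm s
    induction s with
    | zero => simp
    | succ s ih =>
      have h1 := H2 (m + s) (by omega)
      have h2 : K / xr (m + s) ≤ K / xr m :=
        div_le_div_of_nonneg_left hK (xr_pos (by omega)) (xr_mono (by omega))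
      have e : ((s + 1 : ℕ) : ℝ) * K / xr m = s * K / xr m + K / xr m := by push_cast; ring
      rw [← add_assoc, e]; linarith
  have AB : ∀ n0, N ≤ n0 → ∀ n, 2 * n0 ≤ n →
      ρ n0 - 24 * K / xr n0 - n0 * K / xr (n - n0) ≤ ρ n := by
    intro n0 hn0 n hn
    have h0 : 0 < n0 := by omega
    have ht : 1 ≤ n / n0 := (Nat.le_div_iff_mul_le h0).2 (by omega)
    have hs := Nat.mod_lt n h0
    have hd := Nat.div_add_mod' n n0
    have h1 := A n0 hn0 (n / n0) ht
    have h2 := B (n / n0 * n0) (by nlinarith) (n % n0)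
    rw [hd] at h2
    have p0 : 0 < xr (n - n0) := xr_pos (by omega)
    have p1 : xr (n - n0) ≤ xr (n / n0 * n0) := xr_mono (by omega)
    have h3 : ((n % n0 : ℕ) : ℝ) * K / xr (n / n0 * n0) ≤ n0 * K / xr (n - n0) := by
      have : ((n % n0 : ℕ) : ℝ) ≤ n0 := by exact_mod_cast hs.le
      gcongr
    have h4 : 0 ≤ 24 * K / xr (n / n0 * n0) := by have := xr_nonneg (n / n0 * n0); positivity
    linarith
  set Z : Set ℝ := {z | ∃ n0, N ≤ n0 ∧ z = ρ n0 - 24 * K / xr n0} with hZ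
  have hne : Z.Nonempty := ⟨_, N, le_rfl, rfl⟩
  have hbd : BddAbove Z := by
    refine ⟨C, ?_⟩
    rintro z ⟨n0, -, rfl⟩
    have := hC n0
    have : 0 ≤ 24 * K / xr n0 := by have := xr_nonneg n0; positivity
    linarith
  refine ⟨sSup Z, tendsto_order.2 ⟨fun a ha => ?_, fun b hb => ?_⟩⟩
  · obtain ⟨z, ⟨n0, hn0, rfl⟩, hz⟩ := exists_lt_of_lt_csSup hne ha
    have t1 : Tendsto (fun n => (n0 : ℝ) * K / xr (n - n0)) atTop (𝓝 0) :=
      tendsto_const_nhds.div_atTop (xr_tendsto.comp (tendsto_sub_atTop_nat n0))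
    have t2 := (tendsto_order.1 t1).2 _ (sub_pos.2 hz)
    filter_upwards [t2, eventually_ge_atTop (2 * n0)] with n h1 h2
    have := AB n0 hn0 n h2
    linarith
  · have t1 : Tendsto (fun n => 24 * K / xr n) atTop (𝓝 0) :=
      tendsto_const_nhds.div_atTop xr_tendsto
    have t2 := (tendsto_order.1 t1).2 _ (sub_pos.2 hb)
    filter_upwards [t2, eventually_ge_atTop N] with n h1 h2
    have := le_csSup hbd (show ρ n - 24 * K / xr n ∈ Z from ⟨n, h2, rfl⟩)
    linarith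

end Vale.Agent.P170
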