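import Mathlib
import Vale.Agent.P170.Low
import Vale.Agent.P170.Seq

namespace Vale.Agent.P170

open Finset Filter Topology

noncomputable def Am (k C n : ℕ) : ℝ := Rs (Pc (univ : Finset (Fin n)) k) (C * n) Set.univ
noncomputable def Vr (k C n : ℕ) : ℝ :=
  Ns (Pc (univ : Finset (Fin n)) k) (C * n) Set.univ - Am k C n ^ 2

lemma Rs_Pc {V : Type} [Fintype V] [DecidableEq V] (W : Finset V) (k L : ℕ) :
    Rs (Pc W k) L Set.univ = ∑ t ∈ range L, pr k W.card t := by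
  rw [Rs_apply]; simp only [Pc_pow_eq]

lemma Am_eq (k C n : ℕ) : Am k C n = ∑ t ∈ range (C * n), pr k n t := by
  rw [Am, Rs_apply]; rfl

lemma uM {k n : ℕ} (h : k ≤ n) : IsM (Dep univ) (Pc (univ : Finset (Fin n)) k) :=
  Pc_isM (by simpa using h)

lemma big {k n : ℕ} (hk : 3 ≤ k) (h : 2 * (k : ℝ) ^ 2 ≤ xr n) :
    18 ≤ xr n ∧ 3 * (xr n ^ 3 * k) ≤ n ∧ 2 * k ≤ n := by
  have hk' : (3 : ℝ) ≤ k := by exact_mod_cast hk
  have h1 : 18 ≤ xr n := by nlinarith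
  have h2 : 3 * (xr n ^ 3 * k) ≤ n := by
    rw [← xr_pow n]
    have a1 : 3 * (k : ℝ) ≤ xr n := by nlinarith
    have a2 : xr n ≤ xr n ^ 6 := le_self_pow₀ (by linarith) (by norm_num)
    have : xr n ^ 9 = xr n ^ 3 * xr n ^ 6 := by ring
    rw [this]
    have : 0 ≤ xr n ^ 3 := by positivity
    nlinarith
  refine ⟨h1, h2, ?_⟩
  have a3 : 1 ≤ xr n ^ 3 := one_le_pow₀ (by linarith)
  have : 2 * (k : ℝ) ≤ n := by nlinarith
  exact_mod_cast this

lemma var_x {k C n : ℕ} (hk : 3 ≤ k) (hC : 1 ≤ C) (h : 2 * (k : ℝ) ^ 2 ≤ xr n) :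
    Vr k C n ≤ 20 * C ^ 4 * k * xr n ^ 15 := by
  obtain ⟨h1, h2, h3⟩ := big hk h
  obtain ⟨r, rfl⟩ : ∃ r, k = r + 1 := ⟨k - 1, by omega⟩
  have hC' : (1 : ℝ) ≤ C := by exact_mod_cast hC
  set x := xr n with hx
  have hx9 : (n : ℝ) = x ^ 9 := (xr_pow n).symm
  have x3 : 2 ≤ x ^ 3 := le_trans (by linarith) (le_self_pow₀ (by linarith) (by norm_num))
  have := var_Pc (W := (univ : Finset (Fin n))) (r := r) (by omega) (by simpa using h3)
    (lam := x ^ 3) (μ := C * x ^ 3) x3 (by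
      simp only [card_univ, Fintype.card_fin]
      push_cast at h2
      have : (0 : ℝ) ≤ r := Nat.cast_nonneg r
      nlinarith) (C * n) (by positivity) (by
      push_cast
      rw [hx9, mul_pow, ← pow_mul]
      have : (C : ℝ) ≤ C ^ 3 := le_self_pow₀ hC' (by norm_num)
      gcongr)
  refine this.trans ?_
  simp only [card_univ, Fintype.card_fin]
  push_cast
  rw [hx9]
  have x0 : 0 < x := by linarith
  have e : 2 * ((C : ℝ) * x ^ 9) * (C * x ^ 3 * (2 * (C * x ^ 9) * ((r + 1) / x ^ 9 * x ^ 3 +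
      2 * (C * x ^ 9) * (2 * ((r + 1) / x ^ 9) / (x ^ 3) ^ 2)))) =
      4 * C ^ 3 * (1 + 4 * C) * (r + 1) * x ^ 15 := by field_simp; ring
  rw [e]
  have : 4 * (C : ℝ) ^ 3 * (1 + 4 * C) ≤ 20 * C ^ 4 := by
    have : 0 ≤ (C : ℝ) ^ 3 := by positivity
    nlinarith
  gcongr

lemma Am_le {k C n : ℕ} (h : k ≤ n) : Am k C n ≤ C * n := by
  have := (uM h).Rs_le (C * n) Set.univ
  push_cast at this
  exact this

lemma Am_nonneg {k C n : ℕ} (h : k ≤ n) : 0 ≤ Am k C n := (uM h).Rs_nonneg _ _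

lemma pr_nonneg {k n : ℕ} (h : k ≤ n) (t : ℕ) : 0 ≤ pr k n t := (uM h).pow_u_nonneg _ _
lemma pr_le_one {k n : ℕ} (h : k ≤ n) (t : ℕ) : pr k n t ≤ 1 := (uM h).pow_u_le_one _ _
lemma pr_anti {k n : ℕ} (h : k ≤ n) : Antitone (pr k n) := (uM h).pow_u_anti _

lemma step_lip {k C n : ℕ} (hk : 3 ≤ k) (hC : 1 ≤ C) (h : 2 * (k : ℝ) ^ 2 ≤ xr n) :
    Am k C n / n - (C + 3 * C ^ 2 * k) / xr n ≤ Am k C (n + 1) / (n + 1 : ℕ) := by
  obtain ⟨h1, h2, h3⟩ := big hk h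
  have a0 := Am_le (C := C) (k := k) (n := n) (by omega)
  have a0' := Am_nonneg (C := C) (k := k) (n := n) (by omega)
  obtain ⟨r, rfl⟩ : ∃ r, k = r + 1 := ⟨k - 1, by omega⟩
  have hC' : (1 : ℝ) ≤ C := by exact_mod_cast hC
  set x := xr n with hx
  have hx9 : (n : ℝ) = x ^ 9 := (xr_pow n).symm
  have x0 : 0 < x := by linarith
  have x3 : 2 ≤ x ^ 3 := le_trans (by linarith) (le_self_pow₀ (by linarith) (by norm_num))
  have hr0 : (0 : ℝ) ≤ r := Nat.cast_nonneg r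
  have := (UT (W := (univ : Finset (Fin (n + 1)))) (x := 0) (mem_univ _) (r := r) (by omega)
    (by simp; omega) true (lam := x ^ 3) x3 (by
      simp only [card_univ, Fintype.card_fin]
      push_cast at h2 ⊢
      nlinarith) (C * n)).2
  rw [Rs_Pc, card_erase_of_mem (mem_univ _)] at this
  simp only [card_univ, Fintype.card_fin, Nat.add_sub_cancel] at this
  rw [← Am_eq] at this
  have a1 : Rs (Pc (univ : Finset (Fin (n + 1))) (r + 1)) (C * n) Set.univ ≤ Am (r + 1) C (n + 1) :=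
    (uM (by omega)).Rs_mono (by nlinarith) _
  have n0 : (0 : ℝ) < n := by rw [hx9]; positivity
  have a2 : ((r : ℝ) + 1) / (n + 1 : ℕ) ≤ ((r : ℝ) + 1) / n := by
    push_cast; gcongr; linarith
  have a3 : ((C * n : ℕ) : ℝ) * (((r : ℝ) + 1) / (n + 1 : ℕ) * x ^ 3 +
      (C * n : ℕ) * (2 * (((r : ℝ) + 1) / (n + 1 : ℕ)) / (x ^ 3) ^ 2)) ≤
      ((C * n : ℕ) : ℝ) * (((r : ℝ) + 1) / n * x ^ 3 +
      (C * n : ℕ) * (2 * (((r : ℝ) + 1) / n) / (x ^ 3) ^ 2)) := by gcongr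
  have a4 : ((C * n : ℕ) : ℝ) * (((r : ℝ) + 1) / n * x ^ 3 +
      (C * n : ℕ) * (2 * (((r : ℝ) + 1) / n) / (x ^ 3) ^ 2)) =
      (C + 2 * C ^ 2) * (r + 1) * x ^ 3 := by
    push_cast; rw [hx9]; field_simp
  have a5 : (C + 2 * C ^ 2) * ((r : ℝ) + 1) * x ^ 3 ≤ 3 * C ^ 2 * (r + 1) * x ^ 8 := by
    have : x ^ 3 ≤ x ^ 8 := pow_le_pow_right₀ (by linarith) (by norm_num)
    have : (C : ℝ) + 2 * C ^ 2 ≤ 3 * C ^ 2 := by nlinarith
    gcongr
  have a6 : Am (r + 1) C n - 3 * C ^ 2 * (r + 1) * x ^ 8 ≤ Am (r + 1) C (n + 1) := by linarith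
  push_cast
  rw [le_div_iff₀ (by positivity)]
  have a7 : Am (r + 1) C n / n ≤ C := by rw [div_le_iff₀ n0]; exact a0
  have a8 : Am (r + 1) C n / n * (n + 1) = Am (r + 1) C n + Am (r + 1) C n / n := by field_simp
  have a9 : (C + 3 * C ^ 2 * ((r : ℝ) + 1)) * x ^ 8 ≤ (C + 3 * C ^ 2 * (r + 1)) / x * (n + 1) := by
    rw [div_mul_eq_mul_div, le_div_iff₀ x0, mul_assoc, ← pow_succ, hx9]
    gcongr; norm_num
  have a10 : (C : ℝ) ≤ C * x ^ 8 := le_mul_of_one_le_right (by positivity)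
    (one_le_pow₀ (by linarith))
  rw [sub_mul, a8]
  linarith

lemma tail {k C n : ℕ} (h : k ≤ n) {Vx d μ : ℝ} (hV : Vr k C n ≤ Vx) (hV0 : 0 ≤ Vx) (hd : 0 < d)
    (hμ : 2 * d ≤ Am k C n - μ) (i : ℕ) : 1 - pr k n i ≤ Vx / d ^ 2 + (i - μ) ^ 2 / d ^ 2 := by
  have p0 := pr_nonneg h i
  have p1 := pr_le_one h i
  rcases le_total ((i : ℝ) - μ) d with hi | hi
  · have := (uM h).cheb_low (C * n) i Set.univ (by change _ < Am k C n; linarith)
    change (1 - pr k n i) * (Am k C n - i) ^ 2 ≤ Vr k C n at this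
    have a1 : d ^ 2 ≤ (Am k C n - i) ^ 2 := by gcongr; linarith
    have a2 : 1 - pr k n i ≤ Vx / d ^ 2 := by
      rw [le_div_iff₀ (by positivity)]
      nlinarith [mul_le_mul_of_nonneg_left a1 (sub_nonneg.2 p1)]
    have : 0 ≤ (i - μ) ^ 2 / d ^ 2 := by positivity
    linarith
  · have a1 : 1 ≤ (i - μ) ^ 2 / d ^ 2 := by
      rw [le_div_iff₀ (by positivity), one_mul]; gcongr
    have : 0 ≤ Vx / d ^ 2 := by positivity
    linarith

lemma mix_bound {V : Type} [Fintype V] [DecidableEq V] {W1 W2 : Finset V} (hdj : Disjoint W1 W2)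
    {k C : ℕ} (h1 : k ≤ W1.card) (h2 : k ≤ W2.card) {θ1 θ2 d Vx R : ℝ} (t12 : θ1 + θ2 = 1)
    (t1 : 1 / 3 ≤ θ1) (t2 : 1 / 3 ≤ θ2) (d0 : 0 < d) (V0 : 0 ≤ Vx) (Va : Vr k C W1.card ≤ Vx)
    (Vb : Vr k C W2.card ≤ Vx) (ρa : θ1 * R ≤ Am k C W1.card) (ρb : θ2 * R ≤ Am k C W2.card)
    {m : ℕ} (hm : (m : ℝ) ≤ R - 6 * d) :
    1 - 2 * Vx / d ^ 2 - 2 / d ^ 2 * m ≤ ((θ1 • Pc W1 k + θ2 • Pc W2 k) ^ m) u Set.univ := by
  have hP1 : IsM (Dep W1) (Pc W1 k) := Pc_isM h1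
  have hP2 : IsM (Dep W2) (Pc W2 k) := Pc_isM h2
  refine mix_lower hP1 hP2 (by linarith) (by linarith) t12 Set.univ
      (1 - 2 * Vx / d ^ 2) (2 / d ^ 2) (by positivity) m ?_
  intro i j hij
  have hij' : (i : ℝ) + j = m := by exact_mod_cast hij
  rw [prod_eq hdj hP1 hP2, Pc_pow_eq, Pc_pow_eq]
  have q1 := tail h1 Va V0 d0 (μ := θ1 * m) (by
    have := mul_le_mul_of_nonneg_left hm (by linarith : 0 ≤ θ1)
    have := mul_le_mul_of_nonneg_right t1 d0.le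
    linarith) i
  have q2 := tail h2 Vb V0 d0 (μ := θ2 * m) (by
    have := mul_le_mul_of_nonneg_left hm (by linarith : 0 ≤ θ2)
    have := mul_le_mul_of_nonneg_right t2 d0.le
    linarith) j
  have e1 : (i : ℝ) - θ1 * m = θ2 * i - θ1 * j := by
    rw [← hij']; linear_combination (-(i : ℝ)) * t12
  have e2 : ((j : ℝ) - θ2 * m) ^ 2 = (θ2 * i - θ1 * j) ^ 2 := by
    have : (j : ℝ) - θ2 * m = -(θ2 * i - θ1 * j) := by
      rw [← hij']; linear_combination (-(j : ℝ)) * t12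
    rw [this]; ring
  rw [e1] at q1
  rw [e2] at q2
  have p1 := pr_le_one h1 i
  have p2 := pr_le_one h2 j
  have := mul_nonneg (sub_nonneg.2 p1) (sub_nonneg.2 p2)
  have e3 : 1 - 2 * Vx / d ^ 2 - 2 / d ^ 2 * (θ2 * i - θ1 * j) ^ 2 =
      1 - 2 * (Vx / d ^ 2 + (θ2 * i - θ1 * j) ^ 2 / d ^ 2) := by ring
  rw [e3]; nlinarith

lemma two_sets (a b : ℕ) : ∃ W1 W2 : Finset (Fin a ⊕ Fin b), W1.card = a ∧ W2.card = b ∧
    Disjoint W1 W2 := by
  refine ⟨univ.map Function.Embedding.inl, univ.map Function.Embedding.inr, by simp, by simp, ?_⟩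
  rw [disjoint_left]; intro v h1 h2
  obtain ⟨i, -, rfl⟩ := Finset.mem_map.1 h1
  obtain ⟨j, -, hj⟩ := Finset.mem_map.1 h2
  simp at hj

lemma add_core {k C a b : ℕ} (hk : 3 ≤ k) (ka : k ≤ a) (kb : k ≤ b) {x ρ : ℝ} (x1 : 1 ≤ x)
    (hx9 : (a : ℝ) + b = x ^ 9) (ha : x ^ 9 ≤ 3 * a) (hb : x ^ 9 ≤ 3 * b)
    (hy : 2 * (k : ℝ) ^ 2 ≤ x ^ 3) (h2 : 3 * x ^ 3 ≤ x ^ 9)
    (Va : Vr k C a ≤ 20 * C ^ 4 * k * x ^ 15) (Vb : Vr k C b ≤ 20 * C ^ 4 * k * x ^ 15)
    (ρa : ρ * a ≤ Am k C a) (ρb : ρ * b ≤ Am k C b) {m0 : ℕ} (m3 : (m0 : ℝ) ≤ C * x ^ 9)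
    (m2 : ∀ m < m0, (m : ℝ) ≤ ρ * x ^ 9 - 6 * x ^ 8) :
    m0 * (1 - (40 * C ^ 4 * k + 2 * C) / x) - m0 * (2 * k ^ 2 / x ^ 3 + m0 * (27 / x ^ 18)) ≤
      Am k C (a + b) := by
  have x0 : 0 < x := by linarith
  have x9 : 0 < x ^ 9 := by positivity
  have a0 : (0 : ℝ) < a := by linarith
  have b0 : (0 : ℝ) < b := by linarith
  have m4 : m0 ≤ C * (a + b) := by
    rw [← hx9] at m3; exact_mod_cast m3
  obtain ⟨W1, W2, c1, c2, hdj⟩ := two_sets a b
  have c12 : (W1 ∪ W2).card = a + b := by rw [card_union_of_disjoint hdj, c1, c2]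
  have δ : ∀ a : ℝ, 0 < a → x ^ 9 ≤ 3 * a → (x ^ 3 / a) ^ 3 ≤ 27 / x ^ 18 := by
    intro a a0 ha
    have : x ^ 3 / a ≤ 3 / x ^ 6 := by
      rw [div_le_div_iff₀ a0 (by positivity), ← pow_add]; exact ha
    calc (x ^ 3 / a) ^ 3 ≤ (3 / x ^ 6) ^ 3 := by gcongr
      _ = 27 / x ^ 18 := by ring
  have I := interp hdj hk (by omega) (by omega) (y := x ^ 3) (δ := 27 / x ^ 18) hy
    (by rw [c1]; linarith) (by rw [c2]; linarith) (by rw [c1]; exact δ _ a0 ha)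
    (by rw [c2]; exact δ _ b0 hb) m0
  rw [Rs_Pc, c12, c1, c2, hx9] at I
  have t12 : a / x ^ 9 + b / x ^ 9 = 1 := by rw [← add_div, hx9]; field_simp
  have t1 : 1 / 3 ≤ a / x ^ 9 := by rw [le_div_iff₀ x9]; linarith
  have t2 : 1 / 3 ≤ b / x ^ 9 := by rw [le_div_iff₀ x9]; linarith
  have ta : a / x ^ 9 * (ρ * x ^ 9) = ρ * a := by field_simp
  have tb : b / x ^ 9 * (ρ * x ^ 9) = ρ * b := by field_simp
  have Q : ∀ m ∈ range m0, 1 - (40 * C ^ 4 * k + 2 * C) / x ≤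
      (((a / x ^ 9) • Pc W1 k + (b / x ^ 9) • Pc W2 k) ^ m) u Set.univ := by
    intro m hm
    have hm' := m2 m (mem_range.1 hm)
    refine le_trans ?_ (mix_bound hdj (C := C) (by omega) (by omega) t12 t1 t2 (d := x ^ 8)
      (Vx := 20 * C ^ 4 * k * x ^ 15)
      (by positivity) (by positivity) (by rw [c1]; exact Va) (by rw [c2]; exact Vb)
      (by rw [c1, ta]; exact ρa) (by rw [c2, tb]; exact ρb) hm')
    have : (m : ℝ) ≤ C * x ^ 9 := le_trans (by exact_mod_cast (mem_range.1 hm).le) m3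
    have e1 : 2 * (20 * C ^ 4 * k * x ^ 15) / (x ^ 8) ^ 2 = 40 * C ^ 4 * k / x := by
      field_simp; ring
    have e2 : 2 / (x ^ 8) ^ 2 * m ≤ 2 * C / x := by
      rw [div_mul_eq_mul_div, div_le_div_iff₀ (by positivity) x0]
      have : x ^ 10 ≤ x ^ 16 := pow_le_pow_right₀ x1 (by norm_num)
      calc 2 * (m : ℝ) * x ≤ 2 * (C * x ^ 9) * x := by gcongr
        _ = 2 * C * x ^ 10 := by ring
        _ ≤ 2 * C * x ^ 16 := by gcongr
        _ = _ := by ring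
    rw [e1, add_div]; linarith
  have Q' := sum_le_sum Q
  rw [← Rs_apply] at Q'
  simp only [sum_const, card_range, nsmul_eq_mul] at Q'
  have R : ∑ t ∈ range m0, pr k (a + b) t ≤ Am k C (a + b) := by
    rw [Am_eq]
    exact sum_le_sum_of_subset_of_nonneg (range_mono m4) fun t _ _ => pr_nonneg (by omega) t
  linarith

lemma step_add {k C a b : ℕ} (hk : 3 ≤ k) (hC : 1 ≤ C) (h : 2 * (k : ℝ) ^ 2 ≤ xr a)
    (hab : a ≤ b) (hba : b ≤ 2 * a) :
    min (Am k C a / a) (Am k C b / b) -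
      (7 + C * (40 * C ^ 4 * k + 2 * C) + 2 * C * k ^ 2 + 27 * C ^ 2) / xr (a + b) ≤
      Am k C (a + b) / (a + b : ℕ) := by
  have hb : 2 * (k : ℝ) ^ 2 ≤ xr b := h.trans (xr_mono hab)
  have hn : 2 * (k : ℝ) ^ 2 ≤ xr (a + b) := h.trans (xr_mono (by omega))
  obtain ⟨-, -, ka⟩ := big hk h
  obtain ⟨h1, h2, kn⟩ := big hk hn
  have hk' : (3 : ℝ) ≤ k := by exact_mod_cast hk
  have hC' : (1 : ℝ) ≤ C := by exact_mod_cast hC
  have Va : Vr k C a ≤ 20 * C ^ 4 * k * xr (a + b) ^ 15 := (var_x hk hC h).trans (by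
    have := xr_mono (by omega : a ≤ a + b)
    have := xr_nonneg a
    gcongr)
  have Vb : Vr k C b ≤ 20 * C ^ 4 * k * xr (a + b) ^ 15 := (var_x hk hC hb).trans (by
    have := xr_mono (by omega : b ≤ a + b)
    have := xr_nonneg b
    gcongr)
  have hx9 : (a : ℝ) + b = xr (a + b) ^ 9 := by rw [xr_pow]; push_cast; rfl
  generalize xr (a + b) = x at *
  have x0 : 0 < x := by linarith
  have x1 : 1 ≤ x := by linarith
  have a0 : (0 : ℝ) < a := by exact_mod_cast (by omega : 0 < a)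
  have hab' : (a : ℝ) ≤ b := by exact_mod_cast hab
  have hba' : (b : ℝ) ≤ 2 * a := by exact_mod_cast hba
  have b0 : (0 : ℝ) < b := by linarith
  have ρa : min (Am k C a / a) (Am k C b / b) * a ≤ Am k C a :=
    (le_div_iff₀ a0).1 (min_le_left _ _)
  have ρb : min (Am k C a / a) (Am k C b / b) * b ≤ Am k C b :=
    (le_div_iff₀ b0).1 (min_le_right _ _)
  generalize min (Am k C a / a) (Am k C b / b) = ρ at *
  have ρC : ρ ≤ C := by
    have := Am_le (C := C) (k := k) (n := a) (by omega)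
    exact le_of_mul_le_mul_right (ρa.trans this) a0
  have d0 : 0 < x ^ 8 := by positivity
  have m1 := Nat.lt_floor_add_one (ρ * x ^ 9 - 6 * x ^ 8)
  have m2 : ∀ m < ⌊ρ * x ^ 9 - 6 * x ^ 8⌋₊, (m : ℝ) ≤ ρ * x ^ 9 - 6 * x ^ 8 := by
    intro m hm
    exact (Nat.lt_of_lt_floor hm).le
  have m3 : (⌊ρ * x ^ 9 - 6 * x ^ 8⌋₊ : ℝ) ≤ C * x ^ 9 := by
    rcases le_total (ρ * x ^ 9 - 6 * x ^ 8) 0 with h | h
    · rw [Nat.floor_of_nonpos h]; simp; positivity
    · have := Nat.floor_le h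
      have : ρ * x ^ 9 ≤ C * x ^ 9 := by gcongr
      linarith
  generalize ⌊ρ * x ^ 9 - 6 * x ^ 8⌋₊ = m0 at *
  have x3 : x ≤ x ^ 3 := le_self_pow₀ x1 (by norm_num)
  have x30 : 0 ≤ x ^ 3 := by positivity
  push_cast at h2
  have core := add_core hk (by omega) (by omega) x1 hx9 (by linarith) (by linarith) (by linarith)
    (by nlinarith) Va Vb ρa ρb m3 m2
  have E1 : (m0 : ℝ) * (2 * k ^ 2 / x ^ 3 + m0 * (27 / x ^ 18)) ≤
      (2 * C * k ^ 2 + 27 * C ^ 2) * x ^ 8 := by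
    have p6 : x ^ 6 ≤ x ^ 8 := pow_le_pow_right₀ x1 (by norm_num)
    have p0 : 1 ≤ x ^ 8 := one_le_pow₀ x1
    calc (m0 : ℝ) * (2 * k ^ 2 / x ^ 3 + m0 * (27 / x ^ 18))
        ≤ (C * x ^ 9) * (2 * k ^ 2 / x ^ 3 + (C * x ^ 9) * (27 / x ^ 18)) := by gcongr
      _ = 2 * C * k ^ 2 * x ^ 6 + 27 * C ^ 2 * 1 := by field_simp
      _ ≤ 2 * C * k ^ 2 * x ^ 8 + 27 * C ^ 2 * x ^ 8 := by gcongr
      _ = _ := by ring
  have E2 : (m0 : ℝ) * ((40 * C ^ 4 * k + 2 * C) / x) ≤ C * (40 * C ^ 4 * k + 2 * C) * x ^ 8 := by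
    calc (m0 : ℝ) * ((40 * C ^ 4 * k + 2 * C) / x)
        ≤ (C * x ^ 9) * ((40 * C ^ 4 * k + 2 * C) / x) := by gcongr
      _ = _ := by field_simp
  have p0 : 1 ≤ x ^ 8 := one_le_pow₀ x1
  push_cast
  rw [hx9, le_div_iff₀ (by positivity), sub_mul]
  have e : (7 + C * (40 * C ^ 4 * k + 2 * C) + 2 * C * k ^ 2 + 27 * C ^ 2) / x * x ^ 9 =
      (7 + C * (40 * C ^ 4 * k + 2 * C) + 2 * C * k ^ 2 + 27 * C ^ 2) * x ^ 8 := by field_simp
  rw [e]
  rw [mul_sub] at core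
  linarith

lemma exists_C (k : ℕ) : ∃ C : ℕ, 1 ≤ C ∧ ∀ n, k ≤ n → 1 ≤ n → Am k C n / n ≤ C - 1 / 2 := by
  have hq0 : (0 : ℝ) ≤ 1 - 1 / 2 ^ k := by
    have : (1 : ℝ) / 2 ^ k ≤ 1 := (div_le_one (by positivity)).2 (one_le_pow₀ (by norm_num))
    linarith
  have hq1 : (1 : ℝ) - 1 / 2 ^ k < 1 := by
    have : (0 : ℝ) < 1 / 2 ^ k := by positivity
    linarith
  obtain ⟨C0, hC0⟩ := exists_pow_lt_of_lt_one (by norm_num : (0 : ℝ) < 1 / 4) hq1
  refine ⟨C0 + 1, by omega, fun n hn h1 => ?_⟩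
  have n0 : (0 : ℝ) < n := by exact_mod_cast h1
  rw [div_le_iff₀ n0, Am_eq, add_mul, one_mul, sum_range_add]
  have a1 : ∑ t ∈ range (C0 * n), pr k n t ≤ C0 * n := by
    have := sum_le_sum (s := range (C0 * n)) fun t _ => pr_le_one hn t
    simpa using this
  have a2 : pr k n (C0 * n) ≤ 1 / 2 := by
    refine (pr_upper hn _).trans ?_
    rw [pow_mul, ← mul_pow]
    have b1 : (2 * (1 - 1 / 2 ^ k) ^ C0 : ℝ) ^ n ≤ (1 / 2) ^ n := by
      gcongr; linarith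
    have b2 : (1 / 2 : ℝ) ^ n ≤ (1 / 2) ^ 1 := pow_le_pow_of_le_one (by norm_num) (by norm_num) h1
    linarith
  have a3 : ∑ t ∈ range n, pr k n (C0 * n + t) ≤ n * (1 / 2) := by
    have := sum_le_sum (s := range n) (g := fun _ => (1 / 2 : ℝ))
      fun t _ => (pr_anti hn (Nat.le_add_right (C0 * n) t)).trans a2
    simpa using this
  push_cast
  linarith

lemma Am_low {k C n : ℕ} (hk : 2 ≤ k) (hC : 1 ≤ C) (hn : k ≤ n) : 1 / 54 ≤ Am k C n / n := by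
  have n0 : (0 : ℝ) < n := by exact_mod_cast (by omega : 0 < n)
  rw [le_div_iff₀ n0, Am_eq]
  have a1 : ∑ t ∈ range (n / 27 + 1), pr k n t ≤ ∑ t ∈ range (C * n), pr k n t :=
    sum_le_sum_of_subset_of_nonneg (range_mono (by
      have : n ≤ C * n := Nat.le_mul_of_pos_left n hC
      omega)) fun t _ _ => pr_nonneg hn t
  have a2 := sum_le_sum (s := range (n / 27 + 1)) (f := fun _ => (1 / 2 : ℝ))
    fun t ht => pr_lower hk hn (m := t) (by have := mem_range.1 ht; omega)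
  simp only [sum_const, card_range, nsmul_eq_mul] at a2
  have a3 : (n : ℝ) ≤ 27 * (n / 27 + 1 : ℕ) := by exact_mod_cast (by omega : n ≤ 27 * (n / 27 + 1))
  linarith

theorem threshold (k : ℕ) (hk : 3 ≤ k) : ∃ α : ℝ, 0 < α ∧
    (∀ c : ℝ, 0 ≤ c → c < α → Tendsto (fun n : ℕ => pr k n ⌊c * n⌋₊) atTop (𝓝 1)) ∧
    (∀ c : ℝ, α < c → Tendsto (fun n : ℕ => pr k n ⌊c * n⌋₊) atTop (𝓝 0)) := by
  obtain ⟨C, hC, hCu⟩ := exists_C k
  have hC' : (1 : ℝ) ≤ C := by exact_mod_cast hC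
  have ev : ∀ᶠ n in atTop, 2 * (k : ℝ) ^ 2 ≤ xr n := xr_tendsto.eventually_ge_atTop _
  obtain ⟨N, hN⟩ := eventually_atTop.1 ev
  set K : ℝ := (7 + C * (40 * C ^ 4 * k + 2 * C) + 2 * C * k ^ 2 + 27 * C ^ 2) +
    (C + 3 * C ^ 2 * k) with hK
  obtain ⟨α, hα⟩ := seq_conv (fun n => if k ≤ n then Am k C n / n else 0) K C (by positivity)
    (max N k) (by omega) (fun n => by
      split_ifs with h
      · have := hCu n h (by omega); linarith
      · positivity)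
    (fun a b ha hab hba => by
      rw [if_pos (by omega), if_pos (by omega), if_pos (by omega)]
      refine le_trans ?_ (step_add hk hC (hN a (by omega)) hab hba)
      have := xr_nonneg (a + b)
      gcongr
      rw [hK]; exact le_add_of_nonneg_right (by positivity))
    (fun n hn => by
      rw [if_pos (by omega), if_pos (by omega)]
      refine le_trans ?_ (step_lip hk hC (hN n (by omega)))
      have := xr_nonneg n
      gcongr
      rw [hK]; exact le_add_of_nonneg_left (by positivity))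
  have hα' : Tendsto (fun n : ℕ => Am k C n / n) atTop (𝓝 α) := by
    refine hα.congr' ?_
    filter_upwards [eventually_ge_atTop k] with n hn
    rw [if_pos hn]
  have α0 : 1 / 54 ≤ α := ge_of_tendsto hα' (by
    filter_upwards [eventually_ge_atTop k] with n hn
    exact Am_low (by omega) hC hn)
  have α1 : α ≤ C - 1 / 2 := le_of_tendsto hα' (by
    filter_upwards [eventually_ge_atTop k] with n hn
    exact hCu n hn (by omega))
  have small : ∀ η : ℝ, 0 < η →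
      Tendsto (fun n => 20 * (C : ℝ) ^ 4 * k / η ^ 2 / xr n) atTop (𝓝 0) :=
    fun η _ => tendsto_const_nhds.div_atTop xr_tendsto
  have vb : ∀ η : ℝ, 0 < η → ∀ n, 2 * (k : ℝ) ^ 2 ≤ xr n → ∀ z D : ℝ, 0 ≤ z → η * n ≤ D →
      z * D ^ 2 ≤ Vr k C n → z ≤ 20 * (C : ℝ) ^ 4 * k / η ^ 2 / xr n := by
    intro η hη n hn z D hz hD h
    have v := var_x hk hC hn
    obtain ⟨x18, -, -⟩ := big hk hn
    rw [← xr_pow n] at hD
    generalize xr n = x at *
    have x0 : 0 < x := by linarith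
    have a1 : (η * x ^ 9) ^ 2 ≤ D ^ 2 := by gcongr
    have a2 : x ^ 16 ≤ x ^ 18 := pow_le_pow_right₀ (by linarith) (by norm_num)
    rw [le_div_iff₀ x0, le_div_iff₀ (by positivity)]
    refine le_of_mul_le_mul_right (a := x ^ 15) ?_ (by positivity)
    calc z * x * η ^ 2 * x ^ 15 = z * η ^ 2 * x ^ 16 := by ring
      _ ≤ z * η ^ 2 * x ^ 18 := by gcongr
      _ = z * (η * x ^ 9) ^ 2 := by ring
      _ ≤ z * D ^ 2 := by gcongr
      _ ≤ _ := h.trans v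
  refine ⟨α, by linarith, fun c c0 hc => ?_, fun c hc => ?_⟩
  · set η := (α - c) / 2 with hη
    have η0 : 0 < η := by rw [hη]; linarith
    have t : Tendsto (fun n : ℕ => 1 - pr k n ⌊c * n⌋₊) atTop (𝓝 0) := by
      refine squeeze_zero' ?_ ?_ (small η η0)
      · filter_upwards [eventually_ge_atTop k] with n hn
        exact sub_nonneg.2 (pr_le_one hn _)
      · filter_upwards [eventually_ge_atTop k, ev, (tendsto_order.1 hα').1 (c + η)
          (by rw [hη]; linarith)] with n hn hx hA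
        have n0 : (0 : ℝ) < n := by exact_mod_cast (by omega : 0 < n)
        rw [lt_div_iff₀ n0] at hA
        have fl : (⌊c * n⌋₊ : ℝ) ≤ c * n := Nat.floor_le (by positivity)
        have := mul_pos η0 n0
        refine vb η η0 n hx _ (Am k C n - ⌊c * n⌋₊) (sub_nonneg.2 (pr_le_one hn _))
          (by linarith) ?_
        exact (uM hn).cheb_low (C * n) _ Set.univ (by change _ < Am k C n; linarith)
    have := (tendsto_const_nhds (x := (1 : ℝ))).sub t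
    simpa using this
  · set c' := min c (α + 1 / 4) with hc'
    have c1 : α < c' := lt_min hc (by linarith)
    have c2 : c' < C := lt_of_le_of_lt (min_le_right _ _) (by linarith)
    set η := (c' - α) / 2 with hη
    have η0 : 0 < η := by rw [hη]; linarith
    refine squeeze_zero' ?_ ?_ (small η η0)
    · filter_upwards [eventually_ge_atTop k] with n hn
      exact pr_nonneg hn _
    · filter_upwards [eventually_ge_atTop k, ev, (tendsto_order.1 hα').2 (c' - η)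
        (by rw [hη]; linarith)] with n hn hx hA
      have n0 : (0 : ℝ) < n := by exact_mod_cast (by omega : 0 < n)
      rw [div_lt_iff₀ n0] at hA
      have fl := Nat.lt_floor_add_one (c' * n)
      have := mul_pos η0 n0
      have mono : pr k n ⌊c * n⌋₊ ≤ pr k n ⌊c' * n⌋₊ :=
        pr_anti hn (Nat.floor_le_floor (by gcongr; exact min_le_left _ _))
      refine mono.trans (vb η η0 n hx _ (⌊c' * n⌋₊ + 1 - Am k C n) (pr_nonneg hn _)
        (by linarith) ?_)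
      refine (uM hn).cheb_up (C * n) _ Set.univ ?_ (by change Am k C n ≤ _; linarith)
      rw [Nat.floor_lt (by have : 0 < c' := by linarith
                           positivity)]
      push_cast
      gcongr

end Vale.Agent.P170
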